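import Vale.Agent.P079.Resolvent

open Filter Topology Set

namespace Vale.Agent.P079

variable {X : Type*} [NormedAddCommGroup X] [NormedSpace ℝ X]

def WCl (A : Set X) : Set X :=
  {z | ∀ (F : Finset (X →L[ℝ] ℝ)) (ε : ℝ), 0 < ε → ∃ s ∈ A, ∀ f ∈ F, |f s - f z| < ε}

theorem WCl.mono {A B : Set X} (h : A ⊆ B) : WCl A ⊆ WCl B := by
  intro z hz F ε hε
  obtain ⟨s, hs, hs'⟩ := hz F ε hε
  exact ⟨s, h hs, hs'⟩

theorem WCl.idem {A : Set X} : WCl (WCl A) ⊆ WCl A := by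
  intro z hz F ε hε
  obtain ⟨s, hs, hs'⟩ := hz F (ε / 2) (by linarith)
  obtain ⟨r, hr, hr'⟩ := hs F (ε / 2) (by linarith)
  refine ⟨r, hr, fun f hf => ?_⟩
  have h1 := hs' f hf
  have h2 := hr' f hf
  calc |f r - f z| = |(f r - f s) + (f s - f z)| := by ring_nf
    _ ≤ |f r - f s| + |f s - f z| := abs_add_le _ _
    _ < ε := by linarith

theorem WCl.sub_of_closed_convex {A : Set X} (hA : IsClosed A) (hc : Convex ℝ A) :
    WCl A ⊆ A := by
  intro z hz
  by_contra hzA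
  obtain ⟨f, u, hf, hu⟩ := geometric_hahn_banach_closed_point hc hA hzA
  obtain ⟨s, hs, hs'⟩ := hz {f} (f z - u) (by linarith)
  have h1 := hs' f (by simp)
  have h2 := hf s hs
  rw [abs_lt] at h1
  linarith [h1.1]

theorem WLim.mem_WCl {ι : Type*} {U : Ultrafilter ι} {w : ι → X} {z : X}
    (h : WLim U w z) {A : Set X} (hw : ∀ᶠ i in (U : Filter ι), w i ∈ A) : z ∈ WCl A := by
  intro F ε hε
  have h1 : ∀ᶠ i in (U : Filter ι), ∀ f ∈ F, |f (w i) - f z| < ε := by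
    rw [Filter.eventually_all_finset]
    intro f _
    have := (h f).eventually (Metric.ball_mem_nhds _ hε)
    filter_upwards [this] with i hi
    simpa [Metric.mem_ball, Real.dist_eq] using hi
  obtain ⟨i, hi1, hi2⟩ := (h1.and hw).exists
  exact ⟨w i, hi2, hi1⟩

def Aset (S : Sys X) (δ : ℝ) (B : Set X) : Set X := {a | ∃ J ∈ Res S δ, ∃ q ∈ B, a = J q}

theorem Aset.sub {S : Sys X} {δ : ℝ} {B : Set X} (hB : B ⊆ S.K) : Aset S δ B ⊆ S.K := by
  rintro a ⟨J, hJ, q, hq, rfl⟩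
  exact hJ.1 (hB hq)

def Omega (S : Sys X) (B : Set X) : Set X := {z | ∀ δ > 0, z ∈ WCl (Aset S δ B)}

theorem Omega.mono {S : Sys X} {A B : Set X} (h : A ⊆ B) : Omega S A ⊆ Omega S B := by
  intro z hz δ hδ
  apply WCl.mono _ (hz δ hδ)
  rintro a ⟨J, hJ, q, hq, rfl⟩
  exact ⟨J, hJ, q, h hq, rfl⟩

theorem Omega.closed {S : Sys X} {B : Set X} : WCl (Omega S B) ⊆ Omega S B := by
  intro z hz δ hδ
  apply WCl.idem
  have h : Omega S B ⊆ WCl (Aset S δ B) := fun y hy => hy δ hδ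
  exact WCl.mono h hz

theorem Omega.sub {S : Sys X} {B : Set X} (hB : B ⊆ S.K) : Omega S B ⊆ S.K := by
  intro z hz
  apply WCl.sub_of_closed_convex S.cl S.cv
  exact WCl.mono (Aset.sub hB) (hz 1 one_pos)

theorem Omega.nonempty [CompleteSpace X] {S : Sys X} {B : Set X} (hB : B ⊆ S.K)
    (hne : B.Nonempty) : (Omega S B).Nonempty := by
  have hdir : Directed (· ≥ ·) (fun n : ℕ => 𝓟 (Aset S (1 / ((n : ℝ) + 1)) B)) := by
    intro m n
    have key : ∀ a b : ℕ, a ≤ b →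
        Aset S (1 / ((b : ℝ) + 1)) B ⊆ Aset S (1 / ((a : ℝ) + 1)) B := by
      rintro a b hab y ⟨J, hJ, q, hq, rfl⟩
      refine ⟨J, Res.mono ?_ hJ, q, hq, rfl⟩
      have : (a : ℝ) ≤ b := by exact_mod_cast hab
      gcongr
    refine ⟨max m n, ?_, ?_⟩
    · simpa using key m (max m n) (le_max_left _ _)
    · simpa using key n (max m n) (le_max_right _ _)
  have hnb : NeBot (⨅ n : ℕ, 𝓟 (Aset S (1 / ((n : ℝ) + 1)) B)) := by
    apply iInf_neBot_of_directed hdir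
    intro n
    rw [principal_neBot_iff]
    obtain ⟨q, hq⟩ := hne
    obtain ⟨J, hJ⟩ := exists_res S (δ := 1 / ((n : ℝ) + 1)) (by positivity)
    exact ⟨J q, J, hJ, q, hq, rfl⟩
  let U : Ultrafilter X := Ultrafilter.of (⨅ n : ℕ, 𝓟 (Aset S (1 / ((n : ℝ) + 1)) B))
  have hU : ∀ n : ℕ, Aset S (1 / ((n : ℝ) + 1)) B ∈ U := by
    intro n
    have h1 : (U : Filter X) ≤ 𝓟 (Aset S (1 / ((n : ℝ) + 1)) B) :=
      (Ultrafilter.of_le _).trans (iInf_le _ n)
    simpa using h1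
  obtain ⟨z, _, hz⟩ := exists_wlim_mem S.href U (fun x => x) S.cl S.cv S.bd (by
    filter_upwards [hU 0] with x hx
    exact Aset.sub hB hx)
  refine ⟨z, fun δ hδ => ?_⟩
  obtain ⟨n, hn⟩ := exists_nat_one_div_lt hδ
  have h1 : z ∈ WCl (Aset S (1 / ((n : ℝ) + 1)) B) := hz.mem_WCl (hU n)
  apply WCl.mono _ h1
  rintro a ⟨J, hJ, q, hq, rfl⟩
  exact ⟨J, Res.mono hn.le hJ, q, hq, rfl⟩

theorem exists_base [CompleteSpace X] (S : Sys X) :
    ∃ B : Set X, B ⊆ S.K ∧ B.Nonempty ∧ B ⊆ Omega S B := by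
  let F : Set (Set X) := {B | B ⊆ S.K ∧ B.Nonempty ∧ WCl B ⊆ B ∧ Omega S B ⊆ B}
  have hK : S.K ∈ F := ⟨subset_rfl, S.ne, WCl.sub_of_closed_convex S.cl S.cv,
    Omega.sub subset_rfl⟩
  obtain ⟨B, _, hB⟩ := zorn_superset_nonempty F (by
    intro c hc hchain hcne
    refine ⟨⋂₀ c, ?_, fun s hs => sInter_subset_of_mem hs⟩
    obtain ⟨K0, hK0⟩ := hcne
    refine ⟨(sInter_subset_of_mem hK0).trans (hc hK0).1, ?_, ?_, ?_⟩
    · have : Nonempty c := ⟨⟨K0, hK0⟩⟩
      have hdir : Directed (· ≥ ·) (fun K : c => 𝓟 (K : Set X)) := by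
        intro A B
        rcases hchain.total A.2 B.2 with h | h
        · exact ⟨A, le_refl _, by simpa using h⟩
        · exact ⟨B, by simpa using h, le_refl _⟩
      have hnb : NeBot (⨅ K : c, 𝓟 (K : Set X)) := by
        apply iInf_neBot_of_directed hdir
        intro K
        rw [principal_neBot_iff]
        exact (hc K.2).2.1
      let U : Ultrafilter X := Ultrafilter.of (⨅ K : c, 𝓟 (K : Set X))
      have hU : ∀ K ∈ c, K ∈ U := by
        intro K hK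
        have h1 : (U : Filter X) ≤ 𝓟 K :=
          (Ultrafilter.of_le _).trans (iInf_le (fun K : c => 𝓟 (K : Set X)) ⟨K, hK⟩)
        simpa using h1
      obtain ⟨z, _, hz⟩ := exists_wlim_mem S.href U (fun x => x) S.cl S.cv S.bd
        (by
          have := hU K0 hK0
          filter_upwards [this] with i hi
          exact (hc hK0).1 hi)
      refine ⟨z, fun K hK => ?_⟩
      exact (hc hK).2.2.1 (hz.mem_WCl (hU K hK))
    · intro z hz K hK
      exact (hc hK).2.2.1 (WCl.mono (sInter_subset_of_mem hK) hz)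
    · intro z hz K hK
      exact (hc hK).2.2.2 (Omega.mono (sInter_subset_of_mem hK) hz)) S.K hK
  obtain ⟨hB1, hB2, hB3, hB4⟩ := hB.prop
  refine ⟨B, hB1, hB2, ?_⟩
  have hmem : Omega S B ∈ F :=
    ⟨Omega.sub hB1, Omega.nonempty hB1 hB2, Omega.closed, Omega.mono hB4⟩
  exact hB.le_of_le hmem hB4

end Vale.Agent.P079
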