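import Vale.Agent.P079.Mazur

open Filter Topology Set

namespace Vale.Agent.P079

variable {X : Type*} [NormedAddCommGroup X] [NormedSpace ℝ X]

def PS (S : Sys X) : Set (X × ℝ) :=
  {z | 0 ≤ z.2 ∧ z.2 ≤ 1 ∧ (∀ p ∈ S.K, z.1 + (1 - z.2) • p ∈ S.K) ∧
    ∀ y ∈ S.K, ‖z.1 - z.2 • y‖ ≤ z.2 * S.d}

theorem PS.zero (S : Sys X) : ((0 : X), (0 : ℝ)) ∈ PS S := by
  refine ⟨le_refl _, zero_le_one, fun p hp => ?_, fun y _ => ?_⟩
  · simpa using hp
  · simp

theorem PS.one {S : Sys X} {a : X} (ha : a ∈ S.K) : (a, (1 : ℝ)) ∈ PS S := by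
  refine ⟨zero_le_one, le_refl _, fun p _ => ?_, fun y hy => ?_⟩
  · simpa using ha
  · simpa using S.dd a ha y hy

theorem PS.convex (S : Sys X) : Convex ℝ (PS S) := by
  rintro ⟨P, s⟩ ⟨h1, h2, h3, h4⟩ ⟨P', s'⟩ ⟨h1', h2', h3', h4'⟩ a b ha hb hab
  simp only at h1 h2 h3 h4 h1' h2' h3' h4'
  refine ⟨?_, ?_, fun p hp => ?_, fun y hy => ?_⟩
  · simp only [Prod.smul_mk, Prod.mk_add_mk, smul_eq_mul]; positivity
  · simp only [Prod.smul_mk, Prod.mk_add_mk, smul_eq_mul]; nlinarith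
  · simp only [Prod.smul_mk, Prod.mk_add_mk, smul_eq_mul]
    have e : a • P + b • P' + (1 - (a * s + b * s')) • p =
        a • (P + (1 - s) • p) + b • (P' + (1 - s') • p) := by
      have : (1 - (a * s + b * s')) = a * (1 - s) + b * (1 - s') := by
        linear_combination -hab
      rw [this, add_smul, mul_smul, mul_smul, smul_add, smul_add]
      abel
    rw [e]
    exact S.cv (h3 p hp) (h3' p hp) ha hb hab
  · simp only [Prod.smul_mk, Prod.mk_add_mk, smul_eq_mul]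
    have e : a • P + b • P' - (a * s + b * s') • y = a • (P - s • y) + b • (P' - s' • y) := by
      rw [add_smul, mul_smul, mul_smul, smul_sub, smul_sub]
      abel
    rw [e]
    calc ‖a • (P - s • y) + b • (P' - s' • y)‖ ≤ ‖a • (P - s • y)‖ + ‖b • (P' - s' • y)‖ :=
          norm_add_le _ _
      _ = a * ‖P - s • y‖ + b * ‖P' - s' • y‖ := by
          rw [norm_smul, norm_smul, Real.norm_of_nonneg ha, Real.norm_of_nonneg hb]
      _ ≤ a * (s * S.d) + b * (s' * S.d) := by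
          have := h4 y hy
          have := h4' y hy
          gcongr
      _ = (a * s + b * s') * S.d := by ring

theorem PS.add {S : Sys X} {P : X} {s w : ℝ} (h : (P, s) ∈ PS S) (hw : 0 ≤ w)
    (hsw : s + w ≤ 1) {p : X} (hp : p ∈ S.K) : (P + w • p, s + w) ∈ PS S := by
  obtain ⟨h1, h2, h3, h4⟩ := h
  simp only at h1 h2 h3 h4
  refine ⟨?_, ?_, fun q hq => ?_, fun y hy => ?_⟩
  · simp only; linarith
  · simpa using hsw
  · simp only
    rcases eq_or_lt_of_le h2 with h | h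
    · have hw0 : w = 0 := by linarith
      have h5 := h3 q hq
      rw [hw0, h]
      rw [h] at h5
      simpa using h5
    · have hr : 0 < 1 - s := by linarith
      have e : P + w • p + (1 - (s + w)) • q =
          P + (1 - s) • ((w / (1 - s)) • p + ((1 - s - w) / (1 - s)) • q) := by
        rw [smul_add, smul_smul, smul_smul, mul_div_cancel₀ _ hr.ne', mul_div_cancel₀ _ hr.ne',
          ← add_assoc]
        congr 2
        ring
      rw [e]
      apply h3
      apply S.cv hp hq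
      · positivity
      · apply div_nonneg _ hr.le
        linarith
      · field_simp
        ring
  · simp only
    have e : P + w • p - (s + w) • y = (P - s • y) + w • (p - y) := by
      rw [add_smul, smul_sub]
      abel
    rw [e]
    calc ‖(P - s • y) + w • (p - y)‖ ≤ ‖P - s • y‖ + ‖w • (p - y)‖ := norm_add_le _ _
      _ = ‖P - s • y‖ + w * ‖p - y‖ := by rw [norm_smul, Real.norm_of_nonneg hw]
      _ ≤ s * S.d + w * S.d := by
          have := h4 y hy
          have := S.dd p hp y hy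
          gcongr
      _ = (s + w) * S.d := by ring

theorem PS.mem {S : Sys X} {P : X} {s w : ℝ} (h : (P, s) ∈ PS S) (hw : 0 ≤ w)
    (hsw : s + w ≤ 1) {p q : X} (hp : p ∈ S.K) (hq : q ∈ S.K) :
    P + w • p + (1 - (s + w)) • q ∈ S.K :=
  (PS.add h hw hsw hp).2.2.1 q hq

theorem PS.dist {S : Sys X} {P : X} {s w : ℝ} (h : (P, s) ∈ PS S) (hw : 0 ≤ w)
    (hsw : s + w ≤ 1) {p q y : X} (hq : q ∈ S.K) (hy : y ∈ S.K) :
    ‖P + w • p + (1 - (s + w)) • q - y‖ ≤ (1 - w) * S.d + w * ‖p - y‖ := by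
  have e : P + w • p + (1 - (s + w)) • q - y =
      (P - s • y) + w • (p - y) + (1 - (s + w)) • (q - y) := by
    simp only [smul_sub, sub_smul, add_smul, one_smul]
    abel
  rw [e]
  calc ‖(P - s • y) + w • (p - y) + (1 - (s + w)) • (q - y)‖
      ≤ ‖P - s • y‖ + ‖w • (p - y)‖ + ‖(1 - (s + w)) • (q - y)‖ := norm_add₃_le
    _ = ‖P - s • y‖ + w * ‖p - y‖ + (1 - (s + w)) * ‖q - y‖ := by
        rw [norm_smul, norm_smul, Real.norm_of_nonneg hw, Real.norm_of_nonneg (by linarith)]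
    _ ≤ s * S.d + w * ‖p - y‖ + (1 - (s + w)) * S.d := by
        have h1 := h.2.2.2 y hy
        have h2 := S.dd q hq y hy
        have h3 : 0 ≤ 1 - (s + w) := by linarith
        simp only at h1
        gcongr
    _ = (1 - w) * S.d + w * ‖p - y‖ := by ring

structure IsCtx (S : Sys X) (c : ℝ) (Ψ : ℕ → X → X) : Prop where
  pos : 0 < c
  le1 : c ≤ 1
  mt : ∀ n, MapsTo (Ψ n) S.K S.K
  lip : ∀ n, ∀ p ∈ S.K, ∀ q ∈ S.K, ‖Ψ n p - Ψ n q‖ ≤ c * ‖p - q‖
  near : ∀ η > 0, ∃ δ > 0, ∀ y ∈ S.K, ‖y - S.T y‖ ≤ δ → ∀ q ∈ S.K, ∀ n,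
    ‖Ψ n q - y‖ ≤ (1 - c) * S.d + c * ‖q - y‖ + η

theorem IsCtx.id (S : Sys X) : IsCtx S 1 (fun _ p => p) where
  pos := one_pos
  le1 := le_refl _
  mt := fun _ _ hp => hp
  lip := fun _ p _ q _ => by simp
  near := fun η hη => ⟨1, one_pos, fun y _ _ q _ _ => by simp; linarith⟩

theorem IsCtx.child {S : Sys X} {c : ℝ} {Ψ : ℕ → X → X} (h : IsCtx S c Ψ) {x : ℕ → X}
    (hx : ∀ n, x n ∈ S.K) {P : X} {s w : ℝ} (hP : (P, s) ∈ PS S) (hw : 0 < w)
    (hsw : s + w ≤ 1) {J : X → X} {δ : ℝ} (hJ : J ∈ Res S δ) :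
    IsCtx S (c * w) (fun n q => Ψ n (P + w • J q + (1 - (s + w)) • x n)) := by
  obtain ⟨hJ1, hJ2, hJ3, L, hL, hJ4⟩ := hJ
  have hc := h.pos
  have hs0 : 0 ≤ s := hP.1
  have hw1 : w ≤ 1 := by linarith
  refine ⟨by positivity, ?_, ?_, ?_, ?_⟩
  · calc c * w ≤ 1 * 1 := by
          have := h.le1
          gcongr
      _ = 1 := one_mul 1
  · intro n q hq
    exact h.mt n (PS.mem hP hw.le hsw (hJ1 hq) (hx n))
  · intro n p hp q hq
    refine (h.lip n _ (PS.mem hP hw.le hsw (hJ1 hp) (hx n)) _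
      (PS.mem hP hw.le hsw (hJ1 hq) (hx n))).trans ?_
    have e : P + w • J p + (1 - (s + w)) • x n - (P + w • J q + (1 - (s + w)) • x n) =
        w • (J p - J q) := by
      rw [smul_sub]; abel
    rw [e, norm_smul, Real.norm_of_nonneg hw.le, mul_assoc]
    have := hJ2 p hp q hq
    gcongr
  · intro η hη
    obtain ⟨δ1, hδ1, hn⟩ := h.near (η / 2) (by linarith)
    refine ⟨min δ1 (η / (2 * (L + 1))), lt_min hδ1 (by positivity), ?_⟩
    intro y hy hyT q hq n
    have hy1 : ‖y - S.T y‖ ≤ δ1 := hyT.trans (min_le_left _ _)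
    have hy2 : ‖y - S.T y‖ ≤ η / (2 * (L + 1)) := hyT.trans (min_le_right _ _)
    have h1 := hn y hy hy1 _ (PS.mem hP hw.le hsw (hJ1 hq) (hx n)) n
    have h2 := PS.dist hP hw.le hsw (p := J q) (hx n) hy
    have h3 : ‖J q - y‖ ≤ ‖q - y‖ + L * ‖y - S.T y‖ := by
      calc ‖J q - y‖ = ‖(J q - J y) + (J y - y)‖ := by congr 1; abel
        _ ≤ ‖J q - J y‖ + ‖J y - y‖ := norm_add_le _ _
        _ ≤ _ := add_le_add (hJ2 q hq y hy) (hJ4 y hy)
    have h4 : L * ‖y - S.T y‖ ≤ η / 2 := by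
      calc L * ‖y - S.T y‖ ≤ (L + 1) * (η / (2 * (L + 1))) := by
            gcongr
            linarith
        _ = η / 2 := by field_simp
    calc ‖Ψ n (P + w • J q + (1 - (s + w)) • x n) - y‖
        ≤ (1 - c) * S.d + c * ‖P + w • J q + (1 - (s + w)) • x n - y‖ + η / 2 := h1
      _ ≤ (1 - c) * S.d + c * ((1 - w) * S.d + w * ‖J q - y‖) + η / 2 := by gcongr
      _ ≤ (1 - c) * S.d + c * ((1 - w) * S.d + w * (‖q - y‖ + η / 2)) + η / 2 := by
          have : ‖J q - y‖ ≤ ‖q - y‖ + η / 2 := h3.trans (by linarith)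
          gcongr
      _ = (1 - c * w) * S.d + c * w * ‖q - y‖ + (c * w) * (η / 2) + η / 2 := by ring
      _ ≤ (1 - c * w) * S.d + c * w * ‖q - y‖ + 1 * (η / 2) + η / 2 := by
          have : c * w ≤ 1 := by
            calc c * w ≤ 1 * 1 := by
                  have := h.le1
                  gcongr
              _ = 1 := one_mul 1
          gcongr
      _ = (1 - c * w) * S.d + c * w * ‖q - y‖ + η := by ring

end Vale.Agent.P079
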