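import Vale.Agent.P079.Iterate

open Filter Topology Set

namespace Vale.Agent.P079

variable {X : Type*} [NormedAddCommGroup X] [NormedSpace ℝ X]

theorem exists_fixed_point [CompleteSpace X]
    (href : Function.Surjective (NormedSpace.inclusionInDoubleDual ℝ X))
    {T : X → X} {C : Set X} (hne : C.Nonempty) (hcl : IsClosed C)
    (hb : Bornology.IsBounded C) (hconv : Convex ℝ C) (hT : MapsTo T C C)
    (hTn : ∀ x ∈ C, ∀ y ∈ C, ‖T x - T y‖ ≤ ‖x - y‖) : ∃ x ∈ C, T x = x := by
  obtain ⟨K, hK⟩ := exists_minimal href hne hcl hb hconv hT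
  obtain ⟨hKC, hKne, hKcl, hKcv, hKT⟩ := hK.prop
  have hKb : Bornology.IsBounded K := hb.subset hKC
  let S : Sys X :=
    { K := K
      T := T
      d := Metric.diam K
      href := href
      ne := hKne
      cl := hKcl
      cv := hKcv
      bd := hKb
      mt := hKT
      nx := fun x hx y hy => hTn x (hKC hx) y (hKC hy)
      dd := fun x hx y hy => by
        rw [← dist_eq_norm]
        exact Metric.dist_le_diam_of_mem hKb hx hy
      gk := goebel_karlovitz href hb hTn hK }
  have hd : Metric.diam K ≤ 0 := d_le_zero S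
  obtain ⟨x, hx⟩ := hKne
  refine ⟨x, hKC hx, ?_⟩
  have h1 : dist (T x) x ≤ Metric.diam K := Metric.dist_le_diam_of_mem hKb (hKT hx) hx
  have h2 : dist (T x) x = 0 := le_antisymm (h1.trans hd) dist_nonneg
  exact dist_eq_zero.mp h2

end Vale.Agent.P079
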