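import Vale.Agent.P079.Resolvent

open Filter Topology Set

namespace Vale.Agent.P079

variable {X : Type*} [NormedAddCommGroup X] [NormedSpace ℝ X]

theorem Sys.gk_finite (S : Sys X) {Z : Set X} (hZ : Z.Finite) (hZK : Z ⊆ S.K) {ε : ℝ}
    (hε : 0 < ε) :
    ∃ δ > 0, ∀ x ∈ S.K, ‖x - S.T x‖ ≤ δ → ∀ z ∈ Z, S.d - ε ≤ ‖x - z‖ := by
  induction Z, hZ using Set.Finite.induction_on with
  | empty => exact ⟨1, one_pos, fun _ _ _ z hz => absurd hz (notMem_empty z)⟩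
  | insert _ _ ih =>
    rename_i a Z' _ _
    obtain ⟨δ1, hδ1, h1⟩ := ih (fun z hz => hZK (mem_insert_of_mem _ hz))
    obtain ⟨δ2, hδ2, h2⟩ := S.gk a (hZK (mem_insert _ _)) ε hε
    refine ⟨min δ1 δ2, lt_min hδ1 hδ2, fun x hx hxT z hz => ?_⟩
    rcases mem_insert_iff.1 hz with rfl | hz
    · exact h2 x hx (hxT.trans (min_le_right _ _))
    · exact h1 x hx (hxT.trans (min_le_left _ _)) z hz

theorem Sys.gk_tb (S : Sys X) {W : Set X} (hW : TotallyBounded W) (hWK : W ⊆ S.K) {ε : ℝ}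
    (hε : 0 < ε) :
    ∃ δ > 0, ∀ x ∈ S.K, ‖x - S.T x‖ ≤ δ → ∀ w ∈ W, S.d - ε ≤ ‖x - w‖ := by
  obtain ⟨t, htW, htf, hcov⟩ := Metric.finite_approx_of_totallyBounded hW (ε / 2) (by linarith)
  obtain ⟨δ, hδ, h⟩ := S.gk_finite htf (htW.trans hWK) (ε := ε / 2) (by linarith)
  refine ⟨δ, hδ, fun x hx hxT w hw => ?_⟩
  obtain ⟨y, hy⟩ := mem_iUnion.1 (hcov hw)
  obtain ⟨hyt, hwy⟩ := mem_iUnion.1 hy
  rw [Metric.mem_ball, dist_eq_norm] at hwy
  have h1 := h x hx hxT y hyt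
  have h2 : ‖x - y‖ ≤ ‖x - w‖ + ‖w - y‖ := by
    have := norm_add_le (x - w) (w - y)
    rwa [sub_add_sub_cancel] at this
  linarith

theorem exists_norming (u : X) : ∃ h : X →L[ℝ] ℝ, ‖h‖ ≤ 1 ∧ h u = ‖u‖ := by
  obtain ⟨h, h1, h2⟩ := exists_dual_vector'' ℝ u
  exact ⟨h, h1, by simpa using h2⟩

/-- Uniform simultaneous norming functionals. -/
theorem Sys.functional (S : Sys X) {W : Set X} (hW : TotallyBounded W) (hWK : W ⊆ S.K)
    (Z : Finset X) (hZK : ∀ z ∈ Z, z ∈ S.K) {ε : ℝ} (hε : 0 < ε) :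
    ∃ δ > 0, ∀ x ∈ S.K, ‖x - S.T x‖ ≤ δ → ∀ w ∈ W, ∃ h : X →L[ℝ] ℝ, ‖h‖ ≤ 1 ∧
      S.d - ε ≤ h w - h x ∧ ∀ z ∈ Z, S.d - ε ≤ h z - h x := by
  classical
  obtain ⟨m, hm⟩ : ∃ m : ℝ, m = (Z.card : ℝ) + 1 := ⟨_, rfl⟩
  have hm1 : 1 ≤ m := by rw [hm]; have : (0:ℝ) ≤ (Z.card : ℝ) := Nat.cast_nonneg _; linarith
  have hm0 : 0 < m := by linarith
  let g : X → X := fun w => m⁻¹ • (w + ∑ z ∈ Z, z)
  have hgu : UniformContinuous g := by
    have h1 : LipschitzWith ‖m⁻¹‖₊ g := by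
      apply LipschitzWith.of_dist_le_mul
      intro a b
      rw [dist_eq_norm, dist_eq_norm]
      have : g a - g b = m⁻¹ • (a - b) := by
        simp only [g]
        rw [← smul_sub]; congr 1; abel
      rw [this, norm_smul]; rfl
    exact h1.uniformContinuous
  have hgK : ∀ w ∈ S.K, g w ∈ S.K := by
    intro w hw
    have h1 : g w = m⁻¹ • w + ∑ z ∈ Z, m⁻¹ • z := by
      simp only [g]
      rw [smul_add, Finset.smul_sum]
    by_cases hZ : Z = ∅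
    · subst hZ
      have : m = 1 := by rw [hm]; simp
      rw [h1, this]; simpa using hw
    · have hc : (0:ℝ) < Z.card := by exact_mod_cast Finset.card_pos.2 (Finset.nonempty_iff_ne_empty.2 hZ)
      have h2 : ∑ z ∈ Z, ((Z.card : ℝ)⁻¹) • z ∈ S.K := by
        apply S.cv.sum_mem
        · intro _ _; positivity
        · rw [Finset.sum_const, nsmul_eq_mul, mul_inv_cancel₀ hc.ne']
        · exact hZK
      have h3 : g w = m⁻¹ • w + (m⁻¹ * Z.card) • ∑ z ∈ Z, ((Z.card : ℝ)⁻¹) • z := by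
        rw [h1, Finset.smul_sum]
        congr 1
        apply Finset.sum_congr rfl
        intro z _
        rw [smul_smul, mul_assoc, mul_inv_cancel₀ hc.ne', mul_one]
      rw [h3]
      apply S.cv hw h2 (by positivity) (by positivity)
      rw [hm]; field_simp; ring
  obtain ⟨δ, hδ, h⟩ := S.gk_tb (hW.image hgu) (by
    rintro _ ⟨w, hw, rfl⟩
    exact hgK w (hWK hw)) (ε := ε / m) (by positivity)
  refine ⟨δ, hδ, fun x hx hxT w hw => ?_⟩
  have h1 := h x hx hxT (g w) (mem_image_of_mem _ hw)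
  obtain ⟨φ, hφ1, hφ2⟩ := exists_norming (g w - x)
  rw [norm_sub_rev] at hφ2
  have hle : ∀ z ∈ S.K, φ z - φ x ≤ S.d := by
    intro z hz
    rw [← map_sub]
    calc φ (z - x) ≤ ‖φ (z - x)‖ := Real.le_norm_self _
      _ ≤ ‖φ‖ * ‖z - x‖ := φ.le_opNorm _
      _ ≤ 1 * S.d := by
        have := S.dd z hz x hx
        gcongr
      _ = S.d := one_mul _
  have hsum : m * (φ (g w - x)) = (φ w - φ x) + ∑ z ∈ Z, (φ z - φ x) := by
    simp only [g]
    rw [map_sub, map_smul, map_add, map_sum, smul_eq_mul, mul_sub, ← mul_assoc,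
      mul_inv_cancel₀ hm0.ne', one_mul, Finset.sum_sub_distrib, Finset.sum_const, nsmul_eq_mul, hm]
    ring
  have hlow : m * S.d - ε ≤ (φ w - φ x) + ∑ z ∈ Z, (φ z - φ x) := by
    rw [← hsum, hφ2]
    calc m * S.d - ε = m * (S.d - ε / m) := by field_simp
      _ ≤ m * ‖x - g w‖ := by gcongr
  have hZle : ∀ z ∈ Z, φ z - φ x ≤ S.d := fun z hz => hle z (hZK z hz)
  refine ⟨φ, hφ1, ?_, ?_⟩
  · have : ∑ z ∈ Z, (φ z - φ x) ≤ ∑ _z ∈ Z, S.d := Finset.sum_le_sum hZle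
    rw [Finset.sum_const, nsmul_eq_mul] at this
    have e : m * S.d = (Z.card : ℝ) * S.d + S.d := by rw [hm]; ring
    linarith
  · intro z hz
    have h2 : ∑ z' ∈ Z.erase z, (φ z' - φ x) ≤ ∑ _z' ∈ Z.erase z, S.d :=
      Finset.sum_le_sum (fun z' hz' => hZle z' (Finset.mem_of_mem_erase hz'))
    rw [Finset.sum_const, nsmul_eq_mul] at h2
    have h3 : (φ z - φ x) + ∑ z' ∈ Z.erase z, (φ z' - φ x) = ∑ z' ∈ Z, (φ z' - φ x) :=
      Finset.add_sum_erase Z (fun z' => φ z' - φ x) hz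
    have h4 : (((Z.erase z).card : ℕ) : ℝ) + 1 = Z.card := by
      have := Finset.card_erase_add_one hz
      exact_mod_cast this
    have h5 := hle w (hWK hw)
    have e : m * S.d = ((Z.erase z).card : ℝ) * S.d + S.d + S.d := by
      rw [hm, ← h4]; ring
    linarith

end Vale.Agent.P079
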