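import Vale.Agent.P079.Pump

open Filter Topology Set

namespace Vale.Agent.P079

variable {X : Type*} [NormedAddCommGroup X] [NormedSpace ℝ X]

theorem norm_list_sum_le (H : List (X →L[ℝ] ℝ)) (hH : ∀ h ∈ H, ‖h‖ ≤ 1) :
    ‖H.sum‖ ≤ H.length := by
  induction H with
  | nil => simp
  | cons h H ih =>
    have h1 := ih (fun g hg => hH g (List.mem_cons_of_mem _ hg))
    have h2 := hH h List.mem_cons_self
    rw [List.sum_cons, List.length_cons, Nat.cast_add, Nat.cast_one]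
    calc ‖h + H.sum‖ ≤ ‖h‖ + ‖H.sum‖ := norm_add_le _ _
      _ ≤ (H.length : ℝ) + 1 := by linarith

theorem list_deficit_nonneg {d : ℝ} {v : X} (H : List (X →L[ℝ] ℝ)) (hH : ∀ h ∈ H, h v ≤ d) :
    0 ≤ (H.length : ℝ) * d - H.sum v := by
  induction H with
  | nil => simp
  | cons h H ih =>
    have h1 := ih (fun g hg => hH g (List.mem_cons_of_mem _ hg))
    have h2 := hH h List.mem_cons_self
    rw [List.sum_cons, List.length_cons, Nat.cast_add, Nat.cast_one, add_apply]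
    linarith

theorem list_deficit_le {d : ℝ} {v : X} (H : List (X →L[ℝ] ℝ)) (hH : ∀ h ∈ H, h v ≤ d) :
    ∀ h ∈ H, d - h v ≤ (H.length : ℝ) * d - H.sum v := by
  induction H with
  | nil => simp
  | cons h H ih =>
    have h1 := ih (fun g hg => hH g (List.mem_cons_of_mem _ hg))
    have h2 := hH h List.mem_cons_self
    have h3 := list_deficit_nonneg H (fun g hg => hH g (List.mem_cons_of_mem _ hg))
    intro g hg
    rw [List.sum_cons, List.length_cons, Nat.cast_add, Nat.cast_one, add_apply]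
    rw [List.mem_cons] at hg
    rcases hg with rfl | hg
    · linarith
    · have := h1 g hg
      linarith

def Valid (S : Sys X) (B : Set X) (x : ℕ → X) (ε : ℝ) (l : List (X × (X →L[ℝ] ℝ))) : Prop :=
  (∀ a ∈ l, ‖a.2‖ ≤ 1) ∧
  (∀ a ∈ l, ∃ t : ℝ, ∃ p ∈ S.K, ∃ q ∈ S.K, a.1 = t • (p - q)) ∧
  ∃ (c : ℝ) (Ψ : ℕ → X → X), IsCtx S c Ψ ∧ ∃ ζ ∈ B,
    ∀ᶠ n in (hyperfilter ℕ : Filter ℕ),
      c * ((l.length : ℝ) * S.d) -
        ((l.map Prod.snd).sum (Ψ n ζ) - (l.map Prod.snd).sum (Ψ n (x n))) ≤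
      c * (ε * (1 - 1 / 2 ^ l.length))

theorem Valid.nil (S : Sys X) {B : Set X} (hB : B.Nonempty) (x : ℕ → X) (ε : ℝ) :
    Valid S B x ε [] := by
  obtain ⟨ζ, hζ⟩ := hB
  refine ⟨by simp, by simp, 1, _, IsCtx.id S, ζ, hζ, ?_⟩
  filter_upwards with n
  simp

theorem Valid.next {S : Sys X} {B : Set X} (hBK : B ⊆ S.K) (hB : B ⊆ Omega S B)
    {x : ℕ → X} (hx : ∀ n, x n ∈ S.K)
    (hxT : Tendsto (fun n => ‖x n - S.T (x n)‖) (hyperfilter ℕ : Filter ℕ) (𝓝 0))
    {ε : ℝ} (hε : 0 < ε) {l : List (X × (X →L[ℝ] ℝ))} (hl : Valid S B x ε l) :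
    ∃ a : X × (X →L[ℝ] ℝ), Valid S B x ε (l ++ [a]) ∧ ‖a.1‖ ≤ S.d ∧
      (∀ b ∈ l, S.d - ε ≤ b.2 a.1) ∧ (∀ b ∈ l, |a.2 b.1| ≤ ε) ∧ |a.2 a.1| ≤ ε := by
  obtain ⟨hl1, hl2, c, Ψ, hΨ, ζ, hζ, hdef⟩ := hl
  have hc := hΨ.pos
  set G : X →L[ℝ] ℝ := (l.map Prod.snd).sum with hG
  have hGn : ‖G‖ ≤ (l.length : ℝ) := by
    have := norm_list_sum_le (l.map Prod.snd) (by
      intro h hh
      rw [List.mem_map] at hh
      obtain ⟨a, ha, rfl⟩ := hh
      exact hl1 a ha)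
    simpa using this
  obtain ⟨n, hn⟩ := hdef.exists
  set v : X := (1 / c) • (Ψ n ζ - Ψ n (x n)) with hv
  have hcv : Ψ n ζ - Ψ n (x n) = c • v := by
    rw [hv, smul_smul, mul_one_div_cancel hc.ne', one_smul]
  have hvn : ‖v‖ ≤ S.d := by
    rw [hv, norm_smul, Real.norm_of_nonneg (by positivity)]
    calc 1 / c * ‖Ψ n ζ - Ψ n (x n)‖ ≤ 1 / c * (c * ‖ζ - x n‖) := by
          have := hΨ.lip n ζ (hBK hζ) (x n) (hx n)
          gcongr
      _ = ‖ζ - x n‖ := by field_simp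
      _ ≤ S.d := S.dd _ (hBK hζ) _ (hx n)
  have hvV : ∃ t : ℝ, ∃ p ∈ S.K, ∃ q ∈ S.K, v = t • (p - q) :=
    ⟨1 / c, _, hΨ.mt n (hBK hζ), _, hΨ.mt n (hx n), rfl⟩
  have hp0 : (1 : ℝ) / 2 ^ l.length ≤ 1 := by
    rw [div_le_one (by positivity)]
    exact one_le_pow₀ (by norm_num)
  have hpos : (0 : ℝ) < 1 / 2 ^ l.length := by positivity
  have hhalf : (1 : ℝ) / 2 ^ (l.length + 1) = (1 / 2 ^ l.length) / 2 := by
    rw [pow_succ]; field_simp
  obtain ⟨c', Ψ', hΨ', ζ', hζ', h, hh, hhV, hdef'⟩ := pump S hBK hB hx hxT hΨ hζ G hGn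
    (e := ε * (1 - 1 / 2 ^ l.length)) (e' := ε * (1 - 1 / 2 ^ (l.length + 1)))
    (by
      apply mul_nonneg hε.le
      linarith)
    (by
      apply mul_lt_mul_of_pos_left _ hε
      rw [hhalf]
      linarith) hdef (v :: l.map Prod.fst)
    (by
      intro u hu
      rw [List.mem_cons] at hu
      rcases hu with rfl | hu
      · exact hvV
      · rw [List.mem_map] at hu
        obtain ⟨a, ha, rfl⟩ := hu
        exact hl2 a ha) hε
  refine ⟨(v, h), ⟨?_, ?_, c', Ψ', hΨ', ζ', hζ', ?_⟩, hvn, ?_, ?_, ?_⟩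
  · intro a ha
    rw [List.mem_append, List.mem_singleton] at ha
    rcases ha with ha | rfl
    · exact hl1 a ha
    · exact hh
  · intro a ha
    rw [List.mem_append, List.mem_singleton] at ha
    rcases ha with ha | rfl
    · exact hl2 a ha
    · exact hvV
  · simpa using hdef'
  · intro b hb
    have hle : ∀ g ∈ l.map Prod.snd, g v ≤ S.d := by
      intro g hg
      rw [List.mem_map] at hg
      obtain ⟨a, ha, rfl⟩ := hg
      calc a.2 v ≤ ‖a.2 v‖ := Real.le_norm_self _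
        _ ≤ ‖a.2‖ * ‖v‖ := a.2.le_opNorm _
        _ ≤ 1 * S.d := by
          have := hl1 a ha
          gcongr
        _ = S.d := one_mul _
    have h1 := list_deficit_le (l.map Prod.snd) hle b.2 (List.mem_map.mpr ⟨b, hb, rfl⟩)
    rw [List.length_map, ← hG] at h1
    rw [← map_sub, hcv, map_smul, smul_eq_mul] at hn
    have h2 : c * ((l.length : ℝ) * S.d - G v) ≤ c * (ε * (1 - 1 / 2 ^ l.length)) := by
      linarith
    have h3 := le_of_mul_le_mul_left h2 hc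
    have h4 : ε * (1 - 1 / 2 ^ l.length) ≤ ε := by
      have : ε * (1 - 1 / 2 ^ l.length) ≤ ε * 1 := by
        gcongr
        linarith
      linarith
    show S.d - ε ≤ b.2 v
    linarith
  · intro b hb
    exact hhV b.1 (List.mem_cons_of_mem _ (List.mem_map.mpr ⟨b, hb, rfl⟩))
  · exact hhV v List.mem_cons_self

theorem d_le_zero [CompleteSpace X] (S : Sys X) : S.d ≤ 0 := by
  by_contra hd
  push Not at hd
  obtain ⟨B, hBK, hBne, hB⟩ := exists_base S
  obtain ⟨x, hx, hxT⟩ : ∃ x : ℕ → X, (∀ n, x n ∈ S.K) ∧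
      Tendsto (fun n => ‖x n - S.T (x n)‖) (hyperfilter ℕ : Filter ℕ) (𝓝 0) := by
    obtain ⟨z, hz⟩ := S.ne
    have h1 : ∀ n : ℕ, ∃ y ∈ S.K, ‖y - S.T y‖ ≤ 1 / ((n : ℝ) + 1) := by
      intro n
      obtain ⟨J, hJ⟩ := exists_res S (δ := 1 / ((n : ℝ) + 1)) (by positivity)
      exact ⟨J z, hJ.1 hz, hJ.2.2.1 z hz⟩
    choose y hyK hyT using h1
    refine ⟨y, hyK, ?_⟩
    have h2 : Tendsto (fun n : ℕ => 1 / ((n : ℝ) + 1)) (hyperfilter ℕ : Filter ℕ) (𝓝 0) :=
      tendsto_one_div_add_atTop_nhds_zero_nat.mono_left hyper_le_atTop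
    exact squeeze_zero (fun _ => norm_nonneg _) hyT h2
  set ε : ℝ := S.d / 4 with hεd
  have hε : 0 < ε := by rw [hεd]; linarith
  obtain ⟨a, ha⟩ := exists_seq_of_forall_list
    (fun (l : List (X × (X →L[ℝ] ℝ))) (a : X × (X →L[ℝ] ℝ)) => Valid S B x ε l →
      Valid S B x ε (l ++ [a]) ∧ ‖a.1‖ ≤ S.d ∧
      (∀ b ∈ l, S.d - ε ≤ b.2 a.1) ∧ (∀ b ∈ l, |a.2 b.1| ≤ ε) ∧ |a.2 a.1| ≤ ε) (by
    intro l
    by_cases hl : Valid S B x ε l
    · obtain ⟨a, ha⟩ := hl.next hBK hB hx hxT hε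
      exact ⟨a, fun _ => ha⟩
    · exact ⟨(0, 0), fun h => absurd h hl⟩)
  have hval : ∀ j, Valid S B x ε ((List.range j).map a) := by
    intro j
    induction j with
    | zero => simpa using Valid.nil S hBne x ε
    | succ j ih =>
      have := (ha j ih).1
      rw [List.range_succ, List.map_append]
      simpa using this
  have hmem : ∀ i j, i < j → a i ∈ (List.range j).map a := fun i j hij =>
    List.mem_map.mpr ⟨i, List.mem_range.mpr hij, rfl⟩
  have hnorm : ∀ k, ‖(a k).1‖ ≤ S.d := fun k => (ha k (hval k)).2.1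
  have hlow : ∀ i k, i < k → S.d - ε ≤ (a i).2 (a k).1 := fun i k hik =>
    (ha k (hval k)).2.2.1 _ (hmem i k hik)
  have hup : ∀ i k, k ≤ i → |(a i).2 (a k).1| ≤ ε := by
    intro i k hki
    rcases Nat.lt_or_eq_of_le hki with h | rfl
    · exact (ha i (hval i)).2.2.2.1 _ (hmem k i h)
    · exact (ha k (hval k)).2.2.2.2
  have hh1 : ∀ i, ‖(a i).2‖ ≤ 1 := fun i => (hval (i + 1)).1 _ (hmem i (i + 1) (Nat.lt_succ_self i))
  obtain ⟨v, hv⟩ := exists_wlim_of_bounded S.href (hyperfilter ℕ) (fun k => (a k).1) S.d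
    (Filter.Eventually.of_forall hnorm)
  have hvlow : ∀ i, S.d - ε ≤ (a i).2 v := by
    intro i
    apply ge_of_tendsto (hv (a i).2)
    have h2 : ∀ᶠ k in (hyperfilter ℕ : Filter ℕ), i < k := hyper_le_atTop (eventually_gt_atTop i)
    filter_upwards [h2] with k hk
    exact hlow i k hk
  let E : Set X := {b | ∀ᶠ i in atTop, (a i).2 b ≤ ε}
  have hE : Convex ℝ E := by
    intro b hb b' hb' p q hp hq hpq
    show ∀ᶠ i in atTop, (a i).2 (p • b + q • b') ≤ ε
    filter_upwards [hb, hb'] with i h1 h2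
    rw [map_add, map_smul, map_smul, smul_eq_mul, smul_eq_mul]
    have h3 : p * (a i).2 b ≤ p * ε := by gcongr
    have h4 : q * (a i).2 b' ≤ q * ε := by gcongr
    have h5 : p * ε + q * ε = ε := by rw [← add_mul, hpq, one_mul]
    linarith
  have hrange : convexHull ℝ (Set.range fun k => (a k).1) ⊆ E := by
    apply convexHull_min _ hE
    rintro _ ⟨k, rfl⟩
    show ∀ᶠ i in atTop, (a i).2 (a k).1 ≤ ε
    filter_upwards [eventually_ge_atTop k] with i hi
    exact (abs_le.mp (hup i k hi)).2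
  have hvcl : v ∈ closure (convexHull ℝ (Set.range fun k => (a k).1)) := by
    apply hv.mem_of_closed_convex isClosed_closure (convex_convexHull ℝ _).closure
    filter_upwards with k
    exact subset_closure (subset_convexHull ℝ _ ⟨k, rfl⟩)
  obtain ⟨b, hb, hvb⟩ := Metric.mem_closure_iff.mp hvcl ε hε
  obtain ⟨i, hi⟩ := (show ∀ᶠ i in atTop, (a i).2 b ≤ ε from hrange hb).exists
  have h1 : |(a i).2 (v - b)| ≤ ε := by
    calc |(a i).2 (v - b)| = ‖(a i).2 (v - b)‖ := (Real.norm_eq_abs _).symm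
      _ ≤ ‖(a i).2‖ * ‖v - b‖ := (a i).2.le_opNorm _
      _ ≤ 1 * ε := by
        have h5 := hh1 i
        have h6 : ‖v - b‖ ≤ ε := by
          rw [dist_eq_norm] at hvb
          exact hvb.le
        gcongr
      _ = ε := one_mul _
  rw [map_sub] at h1
  have h2 := (abs_le.mp h1).2
  have h3 := hvlow i
  linarith

end Vale.Agent.P079
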