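import Vale.Agent.P079.Weak

open Filter Topology Set

namespace Vale.Agent.P079

variable {X : Type*} [NormedAddCommGroup X] [NormedSpace ℝ X]

/-- The final contradiction: a reflexive space has no bounded triangular system. -/
theorem no_james
    (href : Function.Surjective (NormedSpace.inclusionInDoubleDual ℝ X))
    {d ε M : ℝ} (hε : 3 * ε < d) (v : ℕ → X) (h : ℕ → X →L[ℝ] ℝ)
    (hv : ∀ k, ‖v k‖ ≤ M) (hh : ∀ i, ‖h i‖ ≤ 1)
    (h1 : ∀ i k, i < k → d - ε ≤ h i (v k)) (h2 : ∀ i k, k ≤ i → |h i (v k)| ≤ ε) : False := by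
  have hε0 : 0 ≤ ε := (abs_nonneg _).trans (h2 0 0 le_rfl)
  let U : Ultrafilter ℕ := Filter.hyperfilter ℕ
  have hUat : (U : Filter ℕ) ≤ atTop := by
    have := Filter.hyperfilter_le_cofinite (α := ℕ)
    rwa [Nat.cofinite_eq_atTop] at this
  obtain ⟨z, hz⟩ := exists_wlim_of_bounded href U v M (Filter.Eventually.of_forall hv)
  have hz1 : ∀ i, d - ε ≤ h i z := by
    intro i
    apply ge_of_tendsto (hz (h i))
    have : ∀ᶠ k in (U : Filter ℕ), i < k := hUat (eventually_gt_atTop i)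
    filter_upwards [this] with k hk
    exact h1 i k hk
  let E : Set X := {b | ∀ᶠ i in atTop, |h i b| ≤ ε}
  have hE : Convex ℝ E := by
    intro b hb b' hb' p q hp hq hpq
    show ∀ᶠ i in atTop, |h i (p • b + q • b')| ≤ ε
    filter_upwards [hb, hb'] with i e1 e2
    rw [map_add, map_smul, map_smul, smul_eq_mul, smul_eq_mul]
    calc |p * h i b + q * h i b'| ≤ |p * h i b| + |q * h i b'| := abs_add_le _ _
      _ = p * |h i b| + q * |h i b'| := by rw [abs_mul, abs_mul, abs_of_nonneg hp, abs_of_nonneg hq]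
      _ ≤ p * ε + q * ε := by gcongr
      _ = ε := by rw [← add_mul, hpq, one_mul]
  have hrange : convexHull ℝ (Set.range v) ⊆ E := by
    apply convexHull_min _ hE
    rintro _ ⟨k, rfl⟩
    show ∀ᶠ i in atTop, |h i (v k)| ≤ ε
    filter_upwards [eventually_ge_atTop k] with i hi
    exact h2 i k hi
  have hzcl : z ∈ closure (convexHull ℝ (Set.range v)) := by
    apply hz.mem_of_closed_convex isClosed_closure (convex_convexHull ℝ _).closure
    filter_upwards with k
    exact subset_closure (subset_convexHull ℝ _ ⟨k, rfl⟩)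
  obtain ⟨b, hb, hzb⟩ := Metric.mem_closure_iff.mp hzcl (d - 2 * ε) (by linarith)
  obtain ⟨i, hi⟩ := (show ∀ᶠ i in atTop, |h i b| ≤ ε from hrange hb).exists
  have e1 : |h i (z - b)| ≤ ‖z - b‖ := by
    calc |h i (z - b)| = ‖h i (z - b)‖ := (Real.norm_eq_abs _).symm
      _ ≤ ‖h i‖ * ‖z - b‖ := (h i).le_opNorm _
      _ ≤ 1 * ‖z - b‖ := by
        have := hh i
        gcongr
      _ = ‖z - b‖ := one_mul _
  have e2 : ‖z - b‖ < d - 2 * ε := by rwa [dist_eq_norm] at hzb
  rw [map_sub] at e1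
  have e3 := abs_le.1 e1
  have e4 := abs_le.1 hi
  have e5 := hz1 i
  linarith [e3.2, e4.2]

end Vale.Agent.P079
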