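import Vale.Agent.P079.Base

open Filter Topology Set

namespace Vale.Agent.P079

variable {X : Type*} [NormedAddCommGroup X] [NormedSpace ℝ X]

theorem hyper_le_atTop : (Filter.hyperfilter ℕ : Filter ℕ) ≤ atTop := by
  have := Filter.hyperfilter_le_cofinite (α := ℕ)
  rwa [Nat.cofinite_eq_atTop] at this

theorem exists_sep {t : Set X} (ht : Convex ℝ t) {ζ : X} {ε : ℝ} (hε : 0 < ε)
    (h : ∀ b ∈ t, ε ≤ ‖b - ζ‖) :
    ∃ g : X →L[ℝ] ℝ, ‖g‖ ≤ 1 ∧ ∀ b ∈ t, g ζ + ε ≤ g b := by
  rcases t.eq_empty_or_nonempty with rfl | ⟨b0, hb0⟩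
  · exact ⟨0, by simp, by simp⟩
  have hdisj : Disjoint (Metric.ball ζ ε) t := by
    rw [Set.disjoint_left]
    intro b hb hbt
    rw [Metric.mem_ball, dist_eq_norm] at hb
    linarith [h b hbt]
  obtain ⟨f, u, hf, hu⟩ := geometric_hahn_banach_open (convex_ball ζ ε) Metric.isOpen_ball ht hdisj
  have hζ : f ζ < u := hf ζ (Metric.mem_ball_self hε)
  set M : ℝ := (u - f ζ) / ε with hM
  have hMpos : 0 < M := div_pos (by linarith) hε
  have hball : ∀ y : X, ‖y‖ < ε → f y < u - f ζ := by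
    intro y hy
    have := hf (ζ + y) (by simpa [Metric.mem_ball, dist_eq_norm] using hy)
    rw [map_add] at this
    linarith
  have hbd1 : ∀ x : X, f x ≤ M * ‖x‖ := by
    intro x
    apply le_of_forall_gt_imp_ge_of_dense
    intro r hr
    have hr0 : 0 < r := lt_of_le_of_lt (by positivity) hr
    -- scale factor
    have h1 : ‖(((u - f ζ) / r)) • x‖ < ε := by
      rw [norm_smul, Real.norm_of_nonneg (by
        apply div_nonneg
        · linarith
        · exact hr0.le)]
      rw [div_mul_eq_mul_div, div_lt_iff₀ hr0]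
      have : (u - f ζ) / ε * ‖x‖ < r := hr
      rw [div_mul_eq_mul_div, div_lt_iff₀ hε] at this
      linarith
    have h2 := hball _ h1
    rw [map_smul, smul_eq_mul, div_mul_eq_mul_div, div_lt_iff₀ hr0] at h2
    have h3 : 0 < u - f ζ := by linarith
    have h4 : f x < r := by
      by_contra hcon
      push Not at hcon
      nlinarith
    exact h4.le
  have hbd : ∀ x : X, ‖f x‖ ≤ M * ‖x‖ := by
    intro x
    rw [Real.norm_eq_abs, abs_le]
    constructor
    · have := hbd1 (-x)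
      rw [map_neg, norm_neg] at this
      linarith
    · exact hbd1 x
  refine ⟨M⁻¹ • f, ?_, ?_⟩
  · apply ContinuousLinearMap.opNorm_le_bound _ (by norm_num)
    intro x
    rw [smul_apply, norm_smul, Real.norm_of_nonneg (by positivity), one_mul]
    calc M⁻¹ * ‖f x‖ ≤ M⁻¹ * (M * ‖x‖) := by
          have := hbd x
          gcongr
      _ = ‖x‖ := by field_simp
  · intro b hb
    have h1 := hu b hb
    simp only [smul_apply, smul_eq_mul]
    have h2 : M * ε = u - f ζ := by rw [hM]; field_simp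
    have h3 : M⁻¹ * (f ζ + M * ε) ≤ M⁻¹ * f b := by
      apply mul_le_mul_of_nonneg_left _ (by positivity)
      rw [h2]; linarith
    have h4 : M⁻¹ * (f ζ + M * ε) = M⁻¹ * f ζ + ε := by field_simp
    linarith

theorem exists_successive {α : Type*} (S : Sys X) (val : α → X) (ζ : X)
    (Adm : List α → α → Prop)
    (h : ∀ l, ∀ F : Finset (X →L[ℝ] ℝ), ∀ ε > 0,
      ∃ a, Adm l a ∧ val a ∈ S.K ∧ ∀ f ∈ F, |f (val a) - f ζ| < ε)
    {ε : ℝ} (hε : 0 < ε) :
    ∃ a : ℕ → α, (∀ j, Adm ((List.range j).map a) (a j) ∧ val (a j) ∈ S.K) ∧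
      ∃ (N : ℕ) (c : ℕ → ℝ), (∀ j, 0 ≤ c j) ∧ ∑ j ∈ Finset.range N, c j = 1 ∧
        ‖∑ j ∈ Finset.range N, c j • val (a j) - ζ‖ ≤ ε := by
  classical
  let Q : List α → (X →L[ℝ] ℝ) → Prop := fun l g => ‖g‖ ≤ 1 ∧ ∀ a ∈ l, g ζ + ε ≤ g (val a)
  let g : List α → (X →L[ℝ] ℝ) := fun l => if hl : ∃ g, Q l g then hl.choose else 0
  obtain ⟨a, ha⟩ := exists_seq_of_forall_list
    (fun (l : List α) (a : α) => Adm l a ∧ val a ∈ S.K ∧
      ∀ l' ∈ l.inits, |g l' (val a) - g l' ζ| < ε / 4) (by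
    intro l
    obtain ⟨a, ha1, ha2, ha3⟩ := h l (l.inits.map g).toFinset (ε / 4) (by linarith)
    refine ⟨a, ha1, ha2, fun l' hl' => ha3 (g l') ?_⟩
    rw [List.mem_toFinset]
    exact List.mem_map_of_mem hl')
  refine ⟨a, fun j => ⟨(ha j).1, (ha j).2.1⟩, ?_⟩
  by_contra hcon
  push Not at hcon
  let G : ℕ → (X →L[ℝ] ℝ) := fun N => g ((List.range N).map a)
  have hG : ∀ N, ‖G N‖ ≤ 1 ∧ ∀ j < N, G N ζ + ε ≤ G N (val (a j)) := by
    intro N
    let t : Set X := {b | ∃ c : ℕ → ℝ, (∀ j, 0 ≤ c j) ∧ ∑ j ∈ Finset.range N, c j = 1 ∧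
      b = ∑ j ∈ Finset.range N, c j • val (a j)}
    have ht : Convex ℝ t := by
      rintro _ ⟨c, hc0, hc1, rfl⟩ _ ⟨c', hc0', hc1', rfl⟩ p q hp hq hpq
      refine ⟨fun j => p * c j + q * c' j, fun j => ?_, ?_, ?_⟩
      · have := hc0 j
        have := hc0' j
        positivity
      · rw [Finset.sum_add_distrib, ← Finset.mul_sum, ← Finset.mul_sum, hc1, hc1']
        linarith
      · rw [Finset.smul_sum, Finset.smul_sum, ← Finset.sum_add_distrib]
        apply Finset.sum_congr rfl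
        intro j _
        rw [add_smul, mul_smul, mul_smul]
    have hex : ∃ g, Q ((List.range N).map a) g := by
      obtain ⟨g0, hg1, hg2⟩ := exists_sep ht hε (ζ := ζ) (by
        rintro _ ⟨c, hc0, hc1, rfl⟩
        exact (hcon N c hc0 hc1).le)
      refine ⟨g0, hg1, ?_⟩
      intro b hb
      rw [List.mem_map] at hb
      obtain ⟨j, hj, rfl⟩ := hb
      rw [List.mem_range] at hj
      apply hg2
      refine ⟨fun i => if i = j then 1 else 0, fun i => ?_, ?_, ?_⟩
      · show (0:ℝ) ≤ (if i = j then 1 else 0)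
        split_ifs <;> norm_num
      · rw [Finset.sum_ite_eq' (Finset.range N) j]
        simp [hj]
      · simp only [ite_smul, one_smul, zero_smul]
        rw [Finset.sum_ite_eq' (Finset.range N) j (fun i => val (a i))]
        simp [hj]
    have hGN : G N = hex.choose := by
      show (if hl : ∃ g, Q ((List.range N).map a) g then hl.choose else 0) = _
      rw [dif_pos hex]
    have hsp := hex.choose_spec
    rw [← hGN] at hsp
    refine ⟨hsp.1, fun j hj => hsp.2 (a j) ?_⟩
    rw [List.mem_map]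
    exact ⟨j, List.mem_range.mpr hj, rfl⟩
  have hclose : ∀ N j, N ≤ j → |G N (val (a j)) - G N ζ| < ε / 4 := by
    intro N j hNj
    apply (ha j).2.2
    rw [List.mem_inits]
    obtain ⟨k, rfl⟩ := Nat.exists_eq_add_of_le hNj
    rw [List.range_add, List.map_append]
    exact List.prefix_append _ _
  let U : Ultrafilter ℕ := Filter.hyperfilter ℕ
  obtain ⟨w, _, hw⟩ := exists_wlim_mem S.href U (fun j => val (a j)) S.cl S.cv S.bd
    (Filter.Eventually.of_forall fun j => (ha j).2.1)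
  have hGw : ∀ N, |G N w - G N ζ| ≤ ε / 4 := by
    intro N
    have h1 : Tendsto (fun j => |G N (val (a j)) - G N ζ|) U (𝓝 |G N w - G N ζ|) :=
      ((hw (G N)).sub_const _).abs
    apply le_of_tendsto h1
    have h2 : ∀ᶠ j in (U : Filter ℕ), N ≤ j := hyper_le_atTop (eventually_ge_atTop N)
    filter_upwards [h2] with j hj
    exact (hclose N j hj).le
  let E : Set X := {b | ∀ᶠ N in atTop, G N ζ + ε ≤ G N b}
  have hE : Convex ℝ E := by
    intro b hb b' hb' p q hp hq hpq
    show ∀ᶠ N in atTop, G N ζ + ε ≤ G N (p • b + q • b')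
    filter_upwards [hb, hb'] with N h1 h2
    rw [map_add, map_smul, map_smul, smul_eq_mul, smul_eq_mul]
    have h3 : p * (G N ζ + ε) ≤ p * G N b := by gcongr
    have h4 : q * (G N ζ + ε) ≤ q * G N b' := by gcongr
    have h5 : p * (G N ζ + ε) + q * (G N ζ + ε) = G N ζ + ε := by rw [← add_mul, hpq, one_mul]
    linarith
  have hrange : convexHull ℝ (Set.range fun j => val (a j)) ⊆ E := by
    apply convexHull_min _ hE
    rintro _ ⟨j, rfl⟩
    show ∀ᶠ N in atTop, G N ζ + ε ≤ G N (val (a j))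
    filter_upwards [eventually_gt_atTop j] with N hN
    exact (hG N).2 j hN
  have hwcl : w ∈ closure (convexHull ℝ (Set.range fun j => val (a j))) := by
    apply hw.mem_of_closed_convex isClosed_closure (convex_convexHull ℝ _).closure
    filter_upwards with j
    exact subset_closure (subset_convexHull ℝ _ ⟨j, rfl⟩)
  obtain ⟨b, hb, hwb⟩ := Metric.mem_closure_iff.mp hwcl (ε / 4) (by linarith)
  obtain ⟨N, hN⟩ := (show ∀ᶠ N in atTop, G N ζ + ε ≤ G N b from hrange hb).exists
  have h1 : |G N (b - w)| ≤ ε / 4 := by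
    calc |G N (b - w)| = ‖G N (b - w)‖ := (Real.norm_eq_abs _).symm
      _ ≤ ‖G N‖ * ‖b - w‖ := (G N).le_opNorm _
      _ ≤ 1 * (ε / 4) := by
        have h5 := (hG N).1
        have h6 : ‖b - w‖ ≤ ε / 4 := by
          rw [dist_comm, dist_eq_norm] at hwb
          exact hwb.le
        gcongr
      _ = ε / 4 := one_mul _
  rw [map_sub, abs_le] at h1
  have h2 := hGw N
  rw [abs_le] at h2
  linarith [h1.2, h2.2]

end Vale.Agent.P079
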