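import Vale.Agent.P079.Weak

open Filter Topology Set

namespace Vale.Agent.P079

variable {X : Type*} [NormedAddCommGroup X] [NormedSpace ℝ X]

def Inv (T : X → X) (C : Set X) : Set (Set X) :=
  {K | K ⊆ C ∧ K.Nonempty ∧ IsClosed K ∧ Convex ℝ K ∧ MapsTo T K K}

theorem exists_minimal
    (href : Function.Surjective (NormedSpace.inclusionInDoubleDual ℝ X))
    {T : X → X} {C : Set X} (hne : C.Nonempty) (hcl : IsClosed C)
    (hb : Bornology.IsBounded C) (hconv : Convex ℝ C) (hT : MapsTo T C C) :
    ∃ K, Minimal (· ∈ Inv T C) K := by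
  have hC : C ∈ Inv T C := ⟨subset_rfl, hne, hcl, hconv, hT⟩
  obtain ⟨m, _, hm⟩ := zorn_superset_nonempty (Inv T C) (by
    intro c hc hchain hcne
    refine ⟨⋂₀ c, ?_, fun s hs => sInter_subset_of_mem hs⟩
    obtain ⟨K0, hK0⟩ := hcne
    refine ⟨(sInter_subset_of_mem hK0).trans (hc hK0).1, ?_, ?_, ?_, ?_⟩
    · -- nonempty
      have : Nonempty c := ⟨⟨K0, hK0⟩⟩
      have hdir : Directed (· ≥ ·) (fun K : c => 𝓟 (K : Set X)) := by
        intro A B
        rcases hchain.total A.2 B.2 with h | h
        · exact ⟨A, le_refl _, by simpa using h⟩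
        · exact ⟨B, by simpa using h, le_refl _⟩
      have hnb : NeBot (⨅ K : c, 𝓟 (K : Set X)) := by
        apply iInf_neBot_of_directed hdir
        intro K
        rw [principal_neBot_iff]
        exact (hc K.2).2.1
      let U : Ultrafilter X := Ultrafilter.of (⨅ K : c, 𝓟 (K : Set X))
      have hU : ∀ K ∈ c, K ∈ U := by
        intro K hK
        have h1 : (U : Filter X) ≤ 𝓟 K :=
          (Ultrafilter.of_le _).trans (iInf_le (fun K : c => 𝓟 (K : Set X)) ⟨K, hK⟩)
        simpa using h1
      obtain ⟨z, _, hz⟩ := exists_wlim_mem href U (fun x => x) hcl hconv hb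
        (by
          have := hU K0 hK0
          filter_upwards [this] with i hi
          exact (hc hK0).1 hi)
      refine ⟨z, ?_⟩
      intro K hK
      exact hz.mem_of_closed_convex (hc hK).2.2.1 (hc hK).2.2.2.1 (hU K hK)
    · exact isClosed_sInter (fun K hK => (hc hK).2.2.1)
    · exact convex_sInter (fun K hK => (hc hK).2.2.2.1)
    · intro x hx K hK
      exact (hc hK).2.2.2.2 (hx K hK)) C hC
  exact ⟨m, hm⟩

theorem Minimal.eq_of_sub {T : X → X} {C K : Set X} (hK : Minimal (· ∈ Inv T C) K)
    {K' : Set X} (hsub : K' ⊆ K) (hne : K'.Nonempty) (hcl : IsClosed K')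
    (hconv : Convex ℝ K') (hT : MapsTo T K' K') : K' = K := by
  apply subset_antisymm hsub
  exact hK.le_of_le ⟨hsub.trans hK.prop.1, hne, hcl, hconv, hT⟩ hsub

theorem goebel_karlovitz
    (href : Function.Surjective (NormedSpace.inclusionInDoubleDual ℝ X))
    {T : X → X} {C K : Set X} (hb : Bornology.IsBounded C)
    (hTn : ∀ x ∈ C, ∀ y ∈ C, ‖T x - T y‖ ≤ ‖x - y‖)
    (hK : Minimal (· ∈ Inv T C) K) :
    ∀ z ∈ K, ∀ ε > 0, ∃ δ > 0, ∀ x ∈ K, ‖x - T x‖ ≤ δ → Metric.diam K - ε ≤ ‖x - z‖ := by
  obtain ⟨hKC, hKne, hKcl, hKconv, hKT⟩ := hK.prop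
  have hKb : Bornology.IsBounded K := hb.subset hKC
  by_contra hcon
  push Not at hcon
  obtain ⟨z0, hz0, ε, hε, hx⟩ := hcon
  have hx' : ∀ n : ℕ, ∃ x ∈ K, ‖x - T x‖ ≤ 1 / ((n : ℝ) + 1) ∧
      ‖x - z0‖ < Metric.diam K - ε := fun n => hx _ (by positivity)
  choose x hxK hxT hxz using hx'
  set s := Metric.diam K - ε with hs
  let U : Ultrafilter ℕ := Filter.hyperfilter ℕ
  have hUat : (U : Filter ℕ) ≤ atTop := by
    have := Filter.hyperfilter_le_cofinite (α := ℕ)
    rwa [Nat.cofinite_eq_atTop] at this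
  have hlim : Tendsto (fun n : ℕ => 1 / ((n : ℝ) + 1)) U (𝓝 0) :=
    tendsto_one_div_add_atTop_nhds_zero_nat.mono_left hUat
  -- K' 
  let K' : Set X := {z | z ∈ K ∧ ∀ η > 0, ∀ᶠ n in (U : Filter ℕ), ‖x n - z‖ ≤ s + η}
  have hK' : K' = K := by
    apply Minimal.eq_of_sub hK (fun z hz => hz.1)
    · refine ⟨z0, hz0, fun η hη => ?_⟩
      filter_upwards with n
      linarith [hxz n]
    · -- closed
      rw [← closure_subset_iff_isClosed]
      intro z hz
      have hzK : z ∈ K := by
        have : closure K' ⊆ closure K := closure_mono (fun z hz => hz.1)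
        exact hKcl.closure_subset (this hz)
      refine ⟨hzK, fun η hη => ?_⟩
      obtain ⟨y, hy, hyz⟩ := Metric.mem_closure_iff.mp hz (η / 2) (by linarith)
      filter_upwards [hy.2 (η / 2) (by linarith)] with n hn
      have h1 : ‖x n - z‖ ≤ ‖x n - y‖ + ‖y - z‖ := by
        have := norm_add_le (x n - y) (y - z)
        simpa using this
      have h2 : ‖y - z‖ < η / 2 := by
        rw [dist_comm, dist_eq_norm] at hyz
        exact hyz
      linarith
    · -- convex
      intro y hy z hz a b ha hb' hab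
      refine ⟨hKconv hy.1 hz.1 ha hb' hab, fun η hη => ?_⟩
      filter_upwards [hy.2 η hη, hz.2 η hη] with n hn1 hn2
      have h1 : x n - (a • y + b • z) = a • (x n - y) + b • (x n - z) := by
        rw [smul_sub, smul_sub]
        have : x n = a • x n + b • x n := by rw [← add_smul, hab, one_smul]
        nth_rewrite 1 [this]
        abel
      rw [h1]
      calc ‖a • (x n - y) + b • (x n - z)‖ ≤ ‖a • (x n - y)‖ + ‖b • (x n - z)‖ := norm_add_le _ _
        _ = a * ‖x n - y‖ + b * ‖x n - z‖ := by
          rw [norm_smul, norm_smul, Real.norm_of_nonneg ha, Real.norm_of_nonneg hb']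
        _ ≤ a * (s + η) + b * (s + η) := by gcongr
        _ = s + η := by rw [← add_mul, hab, one_mul]
    · intro z hz
      refine ⟨hKT hz.1, fun η hη => ?_⟩
      have hl2 : ∀ᶠ n : ℕ in (U : Filter ℕ), 1 / ((n : ℝ) + 1) < η / 2 :=
        hlim.eventually (gt_mem_nhds (by linarith))
      filter_upwards [hz.2 (η / 2) (by linarith), hl2] with n hn hn2
      have h1 : ‖x n - T z‖ ≤ ‖x n - T (x n)‖ + ‖T (x n) - T z‖ := by
        have := norm_add_le (x n - T (x n)) (T (x n) - T z)
        simpa using this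
      have h2 := hTn (x n) (hKC (hxK n)) z (hKC hz.1)
      have h3 := hxT n
      linarith
  -- C'
  have hTK : closure (convexHull ℝ (T '' K)) = K := by
    have hsub0 : T '' K ⊆ K := by
      rintro _ ⟨y, hy, rfl⟩; exact hKT hy
    have hsub : closure (convexHull ℝ (T '' K)) ⊆ K :=
      closure_minimal (convexHull_min hsub0 hKconv) hKcl
    apply Minimal.eq_of_sub hK hsub
    · obtain ⟨y, hy⟩ := hKne
      exact ⟨T y, subset_closure (subset_convexHull ℝ _ ⟨y, hy, rfl⟩)⟩
    · exact isClosed_closure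
    · exact (convex_convexHull ℝ _).closure
    · intro y hy
      exact subset_closure (subset_convexHull ℝ _ ⟨y, hsub hy, rfl⟩)
  let C' : Set X := {z | z ∈ K ∧ ∀ u ∈ K, ‖z - u‖ ≤ s}
  have hC' : C' = K := by
    apply Minimal.eq_of_sub hK (fun z hz => hz.1)
    · obtain ⟨z, hzK, hz⟩ := exists_wlim_mem href U x hKcl hKconv hKb
        (Filter.Eventually.of_forall hxK)
      refine ⟨z, hzK, fun u hu => ?_⟩
      apply le_of_forall_pos_le_add
      intro η hη
      have hu' : u ∈ K' := by rw [hK']; exact hu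
      exact hz.norm_sub_le (hu'.2 η hη)
    · rw [← closure_subset_iff_isClosed]
      intro z hz
      have hzK : z ∈ K := by
        have : closure C' ⊆ closure K := closure_mono (fun z hz => hz.1)
        exact hKcl.closure_subset (this hz)
      refine ⟨hzK, fun u hu => ?_⟩
      apply le_of_forall_pos_le_add
      intro η hη
      obtain ⟨y, hy, hyz⟩ := Metric.mem_closure_iff.mp hz η hη
      have h1 : ‖z - u‖ ≤ ‖z - y‖ + ‖y - u‖ := by
        have := norm_add_le (z - y) (y - u)
        simpa using this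
      have h2 : ‖z - y‖ < η := by rwa [dist_eq_norm] at hyz
      have h3 := hy.2 u hu
      linarith
    · intro y hy z hz a b ha hb' hab
      refine ⟨hKconv hy.1 hz.1 ha hb' hab, fun u hu => ?_⟩
      have h1 : a • y + b • z - u = a • (y - u) + b • (z - u) := by
        rw [smul_sub, smul_sub]
        have : u = a • u + b • u := by rw [← add_smul, hab, one_smul]
        nth_rewrite 1 [this]
        abel
      rw [h1]
      calc ‖a • (y - u) + b • (z - u)‖ ≤ ‖a • (y - u)‖ + ‖b • (z - u)‖ := norm_add_le _ _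
        _ = a * ‖y - u‖ + b * ‖z - u‖ := by
          rw [norm_smul, norm_smul, Real.norm_of_nonneg ha, Real.norm_of_nonneg hb']
        _ ≤ a * s + b * s := by
          have := hy.2 u hu
          have := hz.2 u hu
          gcongr
        _ = s := by rw [← add_mul, hab, one_mul]
    · intro z hz
      refine ⟨hKT hz.1, fun u hu => ?_⟩
      have hsub : K ⊆ Metric.closedBall (T z) s := by
        rw [← hTK]
        apply closure_minimal _ Metric.isClosed_closedBall
        apply convexHull_min _ (convex_closedBall _ _)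
        rintro _ ⟨y, hy, rfl⟩
        rw [Metric.mem_closedBall, dist_eq_norm, norm_sub_rev]
        exact (hTn z (hKC hz.1) y (hKC hy)).trans (hz.2 y hy)
      have := hsub hu
      rw [Metric.mem_closedBall, dist_eq_norm, norm_sub_rev] at this
      exact this
  have hdiam : Metric.diam K ≤ s := by
    apply Metric.diam_le_of_forall_dist_le_of_nonempty hKne
    intro y hy z hz
    rw [dist_eq_norm]
    have : y ∈ C' := by rw [hC']; exact hy
    exact this.2 z hz
  linarith

end Vale.Agent.P079
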