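import Vale.Agent.P079.Threshold

open Filter Topology Set

namespace Vale.Agent.P079

variable {X : Type*} [NormedAddCommGroup X] [NormedSpace ℝ X]

theorem geom_sum_le (κ : ℝ) (N : ℕ) :
    ∑ j ∈ Finset.range N, κ / 2 ^ (j + 1) = κ - κ / 2 ^ N := by
  induction N with
  | zero => simp
  | succ N ih =>
    rw [Finset.sum_range_succ, ih]
    field_simp
    ring

def hullSet (l : List X) : Set (X × ℝ) :=
  convexHull ℝ (insert ((0 : X), (0 : ℝ)) {z | ∃ a ∈ l, z = (a, (1 : ℝ))})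

theorem hullSet.isCompact (l : List X) : IsCompact (hullSet l) := by
  apply Set.Finite.isCompact_convexHull
  apply Set.Finite.insert
  have : {z : X × ℝ | ∃ a ∈ l, z = (a, (1 : ℝ))} = (fun a => (a, (1 : ℝ))) '' {a | a ∈ l} := by
    ext z
    constructor
    · rintro ⟨a, ha, rfl⟩; exact ⟨a, ha, rfl⟩
    · rintro ⟨a, ha, rfl⟩; exact ⟨a, ha, rfl⟩
  rw [this]
  exact (List.finite_toSet l).image _

theorem hullSet.sub {S : Sys X} {l : List X} (hl : ∀ a ∈ l, a ∈ S.K) : hullSet l ⊆ PS S := by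
  apply convexHull_min _ (PS.convex S)
  intro z hz
  rcases hz with rfl | ⟨a, ha, rfl⟩
  · exact PS.zero S
  · exact PS.one (hl a ha)

theorem hullSet.mem {l : List X} {a : ℕ → X} {w : ℕ → ℝ} (hw : ∀ i, 0 ≤ w i) {j : ℕ}
    (hl : ∀ i < j, a i ∈ l) (hs : ∑ i ∈ Finset.range j, w i ≤ 1) :
    (∑ i ∈ Finset.range j, w i • a i, ∑ i ∈ Finset.range j, w i) ∈ hullSet l := by
  set s := ∑ i ∈ Finset.range j, w i with hsdef
  have hcv : Convex ℝ (hullSet l) := convex_convexHull ℝ _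
  have h0 : ((0 : X), (0 : ℝ)) ∈ hullSet l := subset_convexHull ℝ _ (mem_insert _ _)
  have h1 : ∀ i < j, (a i, (1 : ℝ)) ∈ hullSet l := fun i hi =>
    subset_convexHull ℝ _ (mem_insert_of_mem _ ⟨a i, hl i hi, rfl⟩)
  have key := hcv.sum_mem (t := Finset.range (j + 1))
    (w := fun i => if i < j then w i else 1 - s)
    (z := fun i => if i < j then (a i, (1 : ℝ)) else ((0 : X), (0 : ℝ))) (by
      intro i _
      show (0 : ℝ) ≤ if i < j then w i else 1 - s
      split_ifs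
      · exact hw i
      · linarith) (by
      rw [Finset.sum_range_succ]
      simp only [lt_irrefl, if_false]
      have : ∑ i ∈ Finset.range j, (if i < j then w i else 1 - s) = s := by
        rw [hsdef]
        apply Finset.sum_congr rfl
        intro i hi
        rw [Finset.mem_range] at hi
        simp [hi]
      rw [this]; ring) (by
      intro i _
      show (if i < j then (a i, (1 : ℝ)) else ((0 : X), (0 : ℝ))) ∈ hullSet l
      split_ifs with h
      · exact h1 i h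
      · exact h0)
  rw [Finset.sum_range_succ] at key
  simp only [lt_irrefl, if_false] at key
  have e : ∑ i ∈ Finset.range j, ((if i < j then w i else 1 - s) •
      (if i < j then (a i, (1 : ℝ)) else ((0 : X), (0 : ℝ)))) =
      (∑ i ∈ Finset.range j, w i • a i, s) := by
    rw [hsdef, Prod.ext_iff]
    constructor
    · rw [Prod.fst_sum]
      apply Finset.sum_congr rfl
      intro i hi
      rw [Finset.mem_range] at hi
      simp [hi]
    · rw [Prod.snd_sum]
      apply Finset.sum_congr rfl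
      intro i hi
      rw [Finset.mem_range] at hi
      simp [hi]
  rw [e] at key
  simpa using key

theorem pigeon {c e η κ : ℝ} (hc : 0 < c) (he : 0 ≤ e) (hη : 0 < η) (hκ : 0 ≤ κ)
    (hκe : κ * (e + η) ≤ η / 4) {N : ℕ} {w D : ℕ → ℝ}
    (hw1 : ∑ j ∈ Finset.range N, w j = 1) (hD : ∀ j < N, 0 ≤ D j)
    (hsum : ∑ j ∈ Finset.range N, D j ≤ c * (e + η / 4)) :
    ∃ j < N, κ / 2 ^ (j + 1) ≤ w j ∧ D j ≤ c * w j * (e + η) := by
  by_contra hcon
  push Not at hcon
  have h1 : ∀ j ∈ Finset.range N, c * (e + η) * (w j - κ / 2 ^ (j + 1)) ≤ D j := by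
    intro j hj
    rw [Finset.mem_range] at hj
    have hpos : 0 ≤ κ / 2 ^ (j + 1) := by positivity
    by_cases h : κ / 2 ^ (j + 1) ≤ w j
    · have h2 := hcon j hj h
      have h3 : 0 ≤ c * (e + η) := by positivity
      nlinarith
    · push Not at h
      have h2 := hD j hj
      have h3 : 0 ≤ c * (e + η) := by positivity
      nlinarith
  have h2 := Finset.sum_le_sum h1
  rw [← Finset.mul_sum, Finset.sum_sub_distrib, hw1, geom_sum_le] at h2
  have h3 : 0 ≤ κ / 2 ^ N := by positivity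
  have h4 : c * (e + η) * (1 - κ) ≤ c * (e + η) * (1 - (κ - κ / 2 ^ N)) := by
    have : 0 ≤ c * (e + η) := by positivity
    gcongr
    linarith
  have h5 : c * (e + η) * (1 - κ) ≤ c * (e + η / 4) := h4.trans (h2.trans hsum)
  have h6 : (e + η) * (1 - κ) ≤ e + η / 4 := by
    have : c * ((e + η) * (1 - κ)) ≤ c * (e + η / 4) := by linarith
    exact le_of_mul_le_mul_left this hc
  nlinarith

theorem PS.chain {S : Sys X} {a : ℕ → X} (ha : ∀ i, a i ∈ S.K) {w : ℕ → ℝ}
    (hw : ∀ i, 0 ≤ w i) (j : ℕ) (hs : ∑ i ∈ Finset.range j, w i ≤ 1) :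
    (∑ i ∈ Finset.range j, w i • a i, ∑ i ∈ Finset.range j, w i) ∈ PS S := by
  apply hullSet.sub (l := (List.range j).map a) _ (hullSet.mem hw _ hs)
  · intro b hb
    rw [List.mem_map] at hb
    obtain ⟨i, _, rfl⟩ := hb
    exact ha i
  · intro i hi
    rw [List.mem_map]
    exact ⟨i, List.mem_range.mpr hi, rfl⟩

theorem pump (S : Sys X) {B : Set X} (hBK : B ⊆ S.K) (hB : B ⊆ Omega S B)
    {x : ℕ → X} (hx : ∀ n, x n ∈ S.K)
    (hxT : Tendsto (fun n => ‖x n - S.T (x n)‖) (hyperfilter ℕ : Filter ℕ) (𝓝 0))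
    {c : ℝ} {Ψ : ℕ → X → X} (hΨ : IsCtx S c Ψ) {ζ : X} (hζ : ζ ∈ B)
    (G : X →L[ℝ] ℝ) {m : ℝ} (hG : ‖G‖ ≤ m) {e e' : ℝ} (he : 0 ≤ e) (hee : e < e')
    (hdef : ∀ᶠ n in (hyperfilter ℕ : Filter ℕ),
      c * (m * S.d) - (G (Ψ n ζ) - G (Ψ n (x n))) ≤ c * e)
    (V : List X) (hV : ∀ v ∈ V, ∃ t : ℝ, ∃ p ∈ S.K, ∃ q ∈ S.K, v = t • (p - q))
    {tol : ℝ} (htol : 0 < tol) :
    ∃ (c' : ℝ) (Ψ' : ℕ → X → X), IsCtx S c' Ψ' ∧ ∃ ζ' ∈ B, ∃ h : X →L[ℝ] ℝ, ‖h‖ ≤ 1 ∧
      (∀ v ∈ V, |h v| ≤ tol) ∧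
      ∀ᶠ n in (hyperfilter ℕ : Filter ℕ),
        c' * ((m + 1) * S.d) - ((G + h) (Ψ' n ζ') - (G + h) (Ψ' n (x n))) ≤ c' * e' := by
  classical
  have hc := hΨ.pos
  have hm : 0 ≤ m := (norm_nonneg _).trans hG
  have hd := S.d_nonneg
  set η : ℝ := (e' - e) / 8 with hηdef
  have hη : 0 < η := by rw [hηdef]; linarith
  set κ : ℝ := η / (4 * (e + η)) with hκdef
  have hκ : 0 < κ := by rw [hκdef]; positivity
  have hκe : κ * (e + η) ≤ η / 4 := by
    rw [hκdef]
    apply le_of_eq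
    field_simp
  let κs : ℕ → ℝ := fun j => c * (κ / 2 ^ (j + 1)) * η / 8
  have hκs : ∀ j, 0 < κs j := fun j => by positivity
  let val : (X → X) × X → X := fun a => a.1 a.2
  have hthr : ∀ l : List ((X → X) × X), ∃ δ > 0, (∀ a ∈ l, val a ∈ S.K) →
      ∀ y ∈ S.K, ‖y - S.T y‖ ≤ δ →
      (∀ p ∈ S.K, ∀ n, ‖Ψ n p - y‖ ≤ (1 - c) * S.d + c * ‖p - y‖ + κs l.length) ∧
      ∀ z ∈ hullSet (l.map val), ∃ h : X →L[ℝ] ℝ, ‖h‖ ≤ 1 ∧
        (∀ᶠ n in (hyperfilter ℕ : Filter ℕ),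
          h (Ψ n (z.1 + (1 - z.2) • x n)) ≤ h y - S.d + κs l.length) ∧
        ∀ v ∈ V, |h v| ≤ tol := by
    intro l
    by_cases hl : ∀ a ∈ l, val a ∈ S.K
    · obtain ⟨δ, hδ, h1⟩ := exists_threshold hΨ hx V hV htol (hκs l.length)
        (hullSet.isCompact (l.map val)) (hullSet.sub (by
          intro b hb
          rw [List.mem_map] at hb
          obtain ⟨a, ha, rfl⟩ := hb
          exact hl a ha))
      exact ⟨δ, hδ, fun _ => h1⟩
    · exact ⟨1, one_pos, fun h => absurd h hl⟩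
  choose δ hδ hδspec using hthr
  have hη' : 0 < η / (4 * (m + 1)) := by positivity
  obtain ⟨a, ha, N, w, hw0, hw1, hclose⟩ := exists_successive S val ζ
    (fun l a => a.1 ∈ Res S (δ l) ∧ a.2 ∈ B) (by
      intro l F ε hε
      obtain ⟨s, ⟨J, hJ, q, hq, rfl⟩, hs⟩ := hB hζ (δ l) (hδ l) F ε hε
      exact ⟨(J, q), ⟨hJ, hq⟩, hJ.1 (hBK hq), hs⟩) hη'
  have haK : ∀ j, val (a j) ∈ S.K := fun j => (ha j).2
  have hqB : ∀ j, (a j).2 ∈ B := fun j => (ha j).1.2
  have hqK : ∀ j, (a j).2 ∈ S.K := fun j => hBK (hqB j)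
  have hJR : ∀ j, (a j).1 ∈ Res S (δ ((List.range j).map a)) := fun j => (ha j).1.1
  let P : ℕ → X := fun j => ∑ i ∈ Finset.range j, w i • val (a i)
  let s : ℕ → ℝ := fun j => ∑ i ∈ Finset.range j, w i
  have hPsucc : ∀ j, P (j + 1) = P j + w j • val (a j) := fun j => Finset.sum_range_succ _ _
  have hssucc : ∀ j, s (j + 1) = s j + w j := fun j => Finset.sum_range_succ _ _
  have hsN : s N = 1 := hw1
  have hsle : ∀ j ≤ N, s j ≤ 1 := by
    intro j hj
    rw [← hsN]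
    apply Finset.sum_le_sum_of_subset_of_nonneg
    · intro i hi
      rw [Finset.mem_range] at hi ⊢
      omega
    · intro i _ _
      exact hw0 i
  have hPS : ∀ j ≤ N, (P j, s j) ∈ PS S := fun j hj => PS.chain haK hw0 j (hsle j hj)
  let M : ℕ → ℕ → X := fun j n => P j + (1 - s j) • x n
  have hMK : ∀ j ≤ N, ∀ n, M j n ∈ S.K := fun j hj n => (hPS j hj).2.2.1 _ (hx n)
  have hM0 : ∀ n, M 0 n = x n := by
    intro n
    simp [M, P, s]
  have hMN : ∀ n, ‖M N n - ζ‖ ≤ η / (4 * (m + 1)) := by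
    intro n
    have : M N n = ∑ j ∈ Finset.range N, w j • val (a j) := by
      simp [M, P, hsN]
    rw [this]
    exact hclose
  have hMsub : ∀ j n, M (j + 1) n - M j n = w j • (val (a j) - x n) := by
    intro j n
    simp only [M]
    rw [hPsucc, hssucc]
    simp only [smul_sub, sub_smul, add_smul, one_smul]
    abel
  have hΨsub : ∀ j < N, ∀ n, ‖Ψ n (M (j + 1) n) - Ψ n (M j n)‖ ≤ c * w j * S.d := by
    intro j hj n
    calc ‖Ψ n (M (j + 1) n) - Ψ n (M j n)‖ ≤ c * ‖M (j + 1) n - M j n‖ :=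
          hΨ.lip n _ (hMK (j + 1) hj n) _ (hMK j hj.le n)
      _ = c * (w j * ‖val (a j) - x n‖) := by
          rw [hMsub, norm_smul, Real.norm_of_nonneg (hw0 j)]
      _ ≤ c * (w j * S.d) := by
          have h1 := S.dd _ (haK j) _ (hx n)
          have h2 := hw0 j
          gcongr
      _ = c * w j * S.d := by ring
  have hGle : ∀ u : X, |G u| ≤ m * ‖u‖ := by
    intro u
    calc |G u| = ‖G u‖ := (Real.norm_eq_abs _).symm
      _ ≤ ‖G‖ * ‖u‖ := G.le_opNorm _
      _ ≤ m * ‖u‖ := by gcongr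
  -- pigeonhole
  have hpig : ∀ᶠ n in (hyperfilter ℕ : Filter ℕ), ∃ j ∈ {j | j < N},
      κ / 2 ^ (j + 1) ≤ w j ∧
      c * w j * (m * S.d) - (G (Ψ n (M (j + 1) n)) - G (Ψ n (M j n))) ≤ c * w j * (e + η) := by
    filter_upwards [hdef] with n hn
    apply pigeon hc he hη hκ.le hκe hw1
      (D := fun j => c * w j * (m * S.d) - (G (Ψ n (M (j + 1) n)) - G (Ψ n (M j n))))
    · intro j hj
      have h1 := hGle (Ψ n (M (j + 1) n) - Ψ n (M j n))
      have h2 := hΨsub j hj n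
      have h3 : m * ‖Ψ n (M (j + 1) n) - Ψ n (M j n)‖ ≤ m * (c * w j * S.d) := by gcongr
      rw [map_sub] at h1
      have h4 := (abs_le.mp h1).2
      show 0 ≤ c * w j * (m * S.d) - (G (Ψ n (M (j + 1) n)) - G (Ψ n (M j n)))
      linarith
    · rw [Finset.sum_sub_distrib,
        Finset.sum_range_sub (fun j => G (Ψ n (M j n))), ← Finset.sum_mul, ← Finset.mul_sum, hw1,
        hM0]
      have h1 : |G (Ψ n (M N n) - Ψ n ζ)| ≤ c * (η / 4) := by
        calc |G (Ψ n (M N n) - Ψ n ζ)| ≤ m * ‖Ψ n (M N n) - Ψ n ζ‖ := hGle _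
          _ ≤ m * (c * ‖M N n - ζ‖) := by
              have := hΨ.lip n _ (hMK N le_rfl n) _ (hBK hζ)
              gcongr
          _ ≤ m * (c * (η / (4 * (m + 1)))) := by
              have := hMN n
              gcongr
          _ ≤ (m + 1) * (c * (η / (4 * (m + 1)))) := by
              gcongr
              linarith
          _ = c * (η / 4) := by field_simp
      rw [map_sub] at h1
      have h2 := (abs_le.mp h1).1
      linarith
  rw [Ultrafilter.eventually_exists_mem_iff (Set.finite_lt_nat N)] at hpig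
  obtain ⟨j, hjN, hj⟩ := hpig
  have hjN' : j < N := hjN
  have hκwj : κ / 2 ^ (j + 1) ≤ w j := by
    obtain ⟨n, hn⟩ := hj.exists
    exact hn.1
  have hwj : 0 < w j := lt_of_lt_of_le (by positivity) hκwj
  have hswj : s j + w j ≤ 1 := by
    rw [← hssucc]
    exact hsle (j + 1) hjN'
  have hRj := hJR j
  have hlen : ((List.range j).map a).length = j := by simp
  have hlK : ∀ b ∈ (List.range j).map a, val b ∈ S.K := by
    intro b hb
    rw [List.mem_map] at hb
    obtain ⟨i, _, rfl⟩ := hb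
    exact haK i
  obtain ⟨hA1, hA2⟩ := hδspec ((List.range j).map a) hlK (val (a j)) (haK j)
    (hRj.2.2.1 (a j).2 (hqK j))
  rw [hlen] at hA1 hA2
  have hmemhull : (P j, s j) ∈ hullSet (((List.range j).map a).map val) := by
    apply hullSet.mem (a := fun i => val (a i)) hw0 _ (hsle j hjN'.le)
    intro i hi
    rw [List.mem_map]
    exact ⟨a i, List.mem_map.mpr ⟨i, List.mem_range.mpr hi, rfl⟩, rfl⟩
  obtain ⟨h, hh, hhM, hhV⟩ := hA2 _ hmemhull
  have hchild := hΨ.child hx (hPS j hjN'.le) hwj hswj hRj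
  refine ⟨c * w j, _, hchild, (a j).2, hqB j, h, hh, hhV, ?_⟩
  obtain ⟨_, _, _, L, hL, hJL⟩ := hRj
  -- small displacement
  have hsmall : ∀ᶠ n in (hyperfilter ℕ : Filter ℕ),
      (m + 1) * (L * ‖x n - S.T (x n)‖) < η := by
    have h1 : Tendsto (fun n => (m + 1) * (L * ‖x n - S.T (x n)‖)) (hyperfilter ℕ : Filter ℕ)
        (𝓝 ((m + 1) * (L * 0))) := (hxT.const_mul L).const_mul (m + 1)
    apply h1.eventually (gt_mem_nhds _)
    simpa using hη
  filter_upwards [hj, hsmall, hhM] with n hn1 hn2 hn3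
  have hdef1 := hn1.2
  -- Ψ' at ζ'
  have e1 : P j + w j • (a j).1 (a j).2 + (1 - (s j + w j)) • x n = M (j + 1) n := by
    simp only [M]
    rw [hPsucc, hssucc]
  have e2 : ‖Ψ n (P j + w j • (a j).1 (x n) + (1 - (s j + w j)) • x n) - Ψ n (M j n)‖ ≤
      c * w j * (L * ‖x n - S.T (x n)‖) := by
    have hmem : P j + w j • (a j).1 (x n) + (1 - (s j + w j)) • x n ∈ S.K :=
      PS.mem (hPS j hjN'.le) hwj.le hswj ((hJR j).1 (hx n)) (hx n)
    calc ‖Ψ n (P j + w j • (a j).1 (x n) + (1 - (s j + w j)) • x n) - Ψ n (M j n)‖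
        ≤ c * ‖P j + w j • (a j).1 (x n) + (1 - (s j + w j)) • x n - M j n‖ :=
          hΨ.lip n _ hmem _ (hMK j hjN'.le n)
      _ = c * ‖w j • ((a j).1 (x n) - x n)‖ := by
          congr 2
          simp only [M, smul_sub, sub_smul, add_smul, one_smul]
          abel
      _ = c * (w j * ‖(a j).1 (x n) - x n‖) := by rw [norm_smul, Real.norm_of_nonneg hwj.le]
      _ ≤ c * (w j * (L * ‖x n - S.T (x n)‖)) := by
          have := hJL (x n) (hx n)
          gcongr
      _ = c * w j * (L * ‖x n - S.T (x n)‖) := by ring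
  have hhle : ∀ u : X, |h u| ≤ ‖u‖ := by
    intro u
    calc |h u| = ‖h u‖ := (Real.norm_eq_abs _).symm
      _ ≤ ‖h‖ * ‖u‖ := h.le_opNorm _
      _ ≤ 1 * ‖u‖ := by gcongr
      _ = ‖u‖ := one_mul _
  -- drop of new functional
  have e3 : c * w j * S.d - 2 * κs j ≤ h (Ψ n (M (j + 1) n)) - h (Ψ n (M j n)) := by
    have h1 := hA1 (M (j + 1) n) (hMK (j + 1) hjN' n) n
    have h2 : ‖M (j + 1) n - val (a j)‖ ≤ (1 - w j) * S.d := by
      have h3 := PS.dist (hPS j hjN'.le) hwj.le hswj (p := val (a j)) (hx n) (haK j)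
      have h4 : P j + w j • val (a j) + (1 - (s j + w j)) • x n = M (j + 1) n := e1
      rw [h4, sub_self, norm_zero, mul_zero, add_zero] at h3
      exact h3
    have h5 := hhle (val (a j) - Ψ n (M (j + 1) n))
    rw [norm_sub_rev, map_sub] at h5
    have h6 := (abs_le.mp h5).2
    have h7 : c * ‖M (j + 1) n - val (a j)‖ ≤ c * ((1 - w j) * S.d) := by gcongr
    have h8 : h (Ψ n (M j n)) ≤ h (val (a j)) - S.d + κs j := hn3
    nlinarith
  have e4 : 2 * κs j ≤ c * w j * η := by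
    have h1 : κs j ≤ c * w j * η / 8 := by
      show c * (κ / 2 ^ (j + 1)) * η / 8 ≤ c * w j * η / 8
      gcongr
    have h2 : 0 ≤ c * w j * η := by positivity
    linarith
  have h1 := hGle (Ψ n (P j + w j • (a j).1 (x n) + (1 - (s j + w j)) • x n) - Ψ n (M j n))
  have h2 := hhle (Ψ n (P j + w j • (a j).1 (x n) + (1 - (s j + w j)) • x n) - Ψ n (M j n))
  rw [map_sub] at h1 h2
  have h3 := (abs_le.mp h1).2
  have h4 := (abs_le.mp h2).2
  have h5 : m * ‖Ψ n (P j + w j • (a j).1 (x n) + (1 - (s j + w j)) • x n) - Ψ n (M j n)‖ ≤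
      m * (c * w j * (L * ‖x n - S.T (x n)‖)) := by gcongr
  have h6 : c * w j * ((m + 1) * (L * ‖x n - S.T (x n)‖)) ≤ c * w j * η := by
    gcongr
  show c * w j * ((m + 1) * S.d) - ((G + h) (Ψ n (P j + w j • (a j).1 (a j).2 +
    (1 - (s j + w j)) • x n)) - (G + h) (Ψ n (P j + w j • (a j).1 (x n) +
      (1 - (s j + w j)) • x n))) ≤ c * w j * e'
  rw [e1]
  simp only [add_apply]
  have h7 : c * w j * e' = c * w j * (e + η) + 7 * (c * w j * η) := by
    have : e' = e + 8 * η := by rw [hηdef]; ring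
    rw [this]; ring
  have h8 : 0 ≤ c * w j * η := by positivity
  nlinarith

end Vale.Agent.P079
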