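import Vale.Agent.P079.Minimal

open Filter Topology Set

namespace Vale.Agent.P079

structure Sys (X : Type*) [NormedAddCommGroup X] [NormedSpace ℝ X] where
  K : Set X
  T : X → X
  d : ℝ
  href : Function.Surjective (NormedSpace.inclusionInDoubleDual ℝ X)
  ne : K.Nonempty
  cl : IsClosed K
  cv : Convex ℝ K
  bd : Bornology.IsBounded K
  mt : MapsTo T K K
  nx : ∀ x ∈ K, ∀ y ∈ K, ‖T x - T y‖ ≤ ‖x - y‖
  dd : ∀ x ∈ K, ∀ y ∈ K, ‖x - y‖ ≤ d
  gk : ∀ z ∈ K, ∀ ε > 0, ∃ δ > 0, ∀ x ∈ K, ‖x - T x‖ ≤ δ → d - ε ≤ ‖x - z‖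

variable {X : Type*} [NormedAddCommGroup X] [NormedSpace ℝ X]

def Res (S : Sys X) (δ : ℝ) : Set (X → X) :=
  {J | MapsTo J S.K S.K ∧ (∀ x ∈ S.K, ∀ y ∈ S.K, ‖J x - J y‖ ≤ ‖x - y‖) ∧
    (∀ z ∈ S.K, ‖J z - S.T (J z)‖ ≤ δ) ∧
    ∃ L : ℝ, 0 ≤ L ∧ ∀ x ∈ S.K, ‖J x - x‖ ≤ L * ‖x - S.T x‖}

theorem Sys.d_nonneg (S : Sys X) : 0 ≤ S.d := by
  obtain ⟨x, hx⟩ := S.ne
  have := S.dd x hx x hx
  simpa using this

theorem Res.mono {S : Sys X} {δ δ' : ℝ} (h : δ ≤ δ') : Res S δ ⊆ Res S δ' := by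
  rintro J ⟨h1, h2, h3, h4⟩
  exact ⟨h1, h2, fun z hz => (h3 z hz).trans h, h4⟩

theorem exists_res [CompleteSpace X] (S : Sys X) {δ : ℝ} (hδ : 0 < δ) : (Res S δ).Nonempty := by
  have hd := S.d_nonneg
  -- parameter t
  let t : ℝ := min (1 / 2) (δ / (S.d + 1))
  have ht0 : 0 < t := by
    apply lt_min
    · norm_num
    · positivity
  have ht1 : t ≤ 1 / 2 := min_le_left _ _
  have htd : t * S.d ≤ δ := by
    have h1 : t ≤ δ / (S.d + 1) := min_le_right _ _
    calc t * S.d ≤ δ / (S.d + 1) * S.d := by gcongr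
      _ ≤ δ / (S.d + 1) * (S.d + 1) := by
        gcongr; linarith
      _ = δ := by field_simp
  have hmaps : ∀ z ∈ S.K, ∀ u ∈ S.K, (1 - t) • S.T u + t • z ∈ S.K := by
    intro z hz u hu
    exact S.cv (S.mt hu) hz (by linarith) ht0.le (by ring)
  have hex : ∀ z : X, ∃ u : X, z ∈ S.K → u ∈ S.K ∧ u = (1 - t) • S.T u + t • z := by
    intro z
    by_cases hz : z ∈ S.K
    · let g : X → X := fun u => (1 - t) • S.T u + t • z
      have hg : MapsTo g S.K S.K := fun u hu => hmaps z hz u hu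
      have hkk : ((Real.toNNReal (1 - t) : NNReal) : ℝ) = 1 - t :=
        Real.coe_toNNReal _ (by linarith)
      have hcontr : ContractingWith (Real.toNNReal (1 - t)) (hg.restrict g S.K S.K) := by
        constructor
        · rw [← NNReal.coe_lt_coe, hkk]
          simpa using ht0
        · apply LipschitzWith.of_dist_le_mul
          intro a b
          rw [hkk]
          show dist (g a) (g b) ≤ (1 - t) * dist (a : X) b
          rw [dist_eq_norm, dist_eq_norm]
          have : g a - g b = (1 - t) • (S.T a - S.T b) := by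
            simp only [g, smul_sub]; abel
          rw [this, norm_smul, Real.norm_of_nonneg (by linarith)]
          have h1 := S.nx a a.2 b b.2
          have h2 : (0 : ℝ) ≤ 1 - t := by linarith
          exact mul_le_mul_of_nonneg_left h1 h2
      obtain ⟨y, hy, hfix, _⟩ := hcontr.exists_fixedPoint' (S.cl.isComplete) hg hz
        (edist_ne_top _ _)
      exact ⟨y, fun _ => ⟨hy, hfix.symm⟩⟩
    · exact ⟨0, fun h => absurd h hz⟩
  choose J hJ using hex
  have hJK : ∀ z ∈ S.K, J z ∈ S.K := fun z hz => (hJ z hz).1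
  have hJe : ∀ z ∈ S.K, J z = (1 - t) • S.T (J z) + t • z := fun z hz => (hJ z hz).2
  refine ⟨J, fun z hz => hJK z hz, ?_, ?_, 1 / t, by positivity, ?_⟩
  · intro x hx y hy
    have e : J x - J y = (1 - t) • (S.T (J x) - S.T (J y)) + t • (x - y) := by
      have hx' := hJe x hx
      have hy' := hJe y hy
      calc J x - J y = ((1 - t) • S.T (J x) + t • x) - ((1 - t) • S.T (J y) + t • y) := by
            rw [← hx', ← hy']
        _ = _ := by rw [smul_sub, smul_sub]; abel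
    have h1 : ‖J x - J y‖ ≤ (1 - t) * ‖J x - J y‖ + t * ‖x - y‖ := by
      calc ‖J x - J y‖ = ‖(1 - t) • (S.T (J x) - S.T (J y)) + t • (x - y)‖ := by rw [← e]
        _ ≤ ‖(1 - t) • (S.T (J x) - S.T (J y))‖ + ‖t • (x - y)‖ := norm_add_le _ _
        _ = (1 - t) * ‖S.T (J x) - S.T (J y)‖ + t * ‖x - y‖ := by
          rw [norm_smul, norm_smul, Real.norm_of_nonneg (by linarith), Real.norm_of_nonneg ht0.le]
        _ ≤ (1 - t) * ‖J x - J y‖ + t * ‖x - y‖ := by
          have := S.nx (J x) (hJK x hx) (J y) (hJK y hy)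
          have h2 : (0 : ℝ) ≤ 1 - t := by linarith
          gcongr
    nlinarith [norm_nonneg (J x - J y), norm_nonneg (x - y)]
  · intro z hz
    have e : J z - S.T (J z) = t • (z - S.T (J z)) := by
      have hz' := hJe z hz
      calc J z - S.T (J z) = ((1 - t) • S.T (J z) + t • z) - S.T (J z) := by rw [← hz']
        _ = _ := by rw [sub_smul, one_smul, smul_sub]; abel
    rw [e, norm_smul, Real.norm_of_nonneg ht0.le]
    have := S.dd z hz _ (S.mt (hJK z hz))
    calc t * ‖z - S.T (J z)‖ ≤ t * S.d := by gcongr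
      _ ≤ δ := htd
  · intro x hx
    have e : J x - x = (1 - t) • (S.T (J x) - S.T x) + (1 - t) • (S.T x - x) := by
      have hx' := hJe x hx
      calc J x - x = ((1 - t) • S.T (J x) + t • x) - x := by rw [← hx']
        _ = _ := by
          rw [← smul_add, sub_add_sub_cancel, smul_sub, sub_smul 1 t x, one_smul]
          abel
    have h2 : (0 : ℝ) ≤ 1 - t := by linarith
    have h1 : ‖J x - x‖ ≤ (1 - t) * ‖J x - x‖ + (1 - t) * ‖x - S.T x‖ := by
      calc ‖J x - x‖ = ‖(1 - t) • (S.T (J x) - S.T x) + (1 - t) • (S.T x - x)‖ := by rw [← e]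
        _ ≤ ‖(1 - t) • (S.T (J x) - S.T x)‖ + ‖(1 - t) • (S.T x - x)‖ := norm_add_le _ _
        _ = (1 - t) * ‖S.T (J x) - S.T x‖ + (1 - t) * ‖x - S.T x‖ := by
          rw [norm_smul, norm_smul, Real.norm_of_nonneg h2, norm_sub_rev (S.T x) x]
        _ ≤ _ := by
          have := S.nx (J x) (hJK x hx) x hx
          gcongr
    have h3 : t * ‖J x - x‖ ≤ ‖x - S.T x‖ := by
      nlinarith [norm_nonneg (x - S.T x)]
    rw [one_div, inv_mul_eq_div, le_div_iff₀ ht0]
    linarith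

end Vale.Agent.P079
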