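import Vale.Agent.P079.Context

open Filter Topology Set

namespace Vale.Agent.P079

variable {X : Type*} [NormedAddCommGroup X] [NormedSpace ℝ X]

theorem exists_norming (S : Sys X) (L : Finset X) (hL : ∀ z ∈ L, z ∈ S.K) {ε : ℝ}
    (hε : 0 < ε) : ∃ δ > 0, ∀ y ∈ S.K, ‖y - S.T y‖ ≤ δ →
      ∃ h : X →L[ℝ] ℝ, ‖h‖ ≤ 1 ∧ ∀ z ∈ L, S.d - ε ≤ h (y - z) := by
  rcases L.eq_empty_or_nonempty with rfl | hne
  · exact ⟨1, one_pos, fun y _ _ => ⟨0, by simp, by simp⟩⟩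
  set m : ℝ := (L.card : ℝ) with hm
  have hmpos : 0 < m := by
    rw [hm]
    exact_mod_cast hne.card_pos
  let zb : X := ∑ z ∈ L, (1 / m) • z
  have hzb : zb ∈ S.K := by
    apply S.cv.sum_mem (fun _ _ => by positivity) _ hL
    rw [Finset.sum_const, nsmul_eq_mul, ← hm]
    field_simp
  obtain ⟨δ, hδ, hgk⟩ := S.gk zb hzb (ε / m) (by positivity)
  refine ⟨δ, hδ, fun y hy hyT => ?_⟩
  obtain ⟨h, hh1, hh2⟩ := exists_dual_vector'' ℝ (y - zb)
  refine ⟨h, hh1, ?_⟩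
  have h1 : S.d - ε / m ≤ h (y - zb) := by
    have h3 : h (y - zb) = ‖y - zb‖ := by simpa using hh2
    rw [h3]
    exact hgk y hy hyT
  have hle : ∀ z ∈ L, h (y - z) ≤ S.d := by
    intro z hz
    calc h (y - z) ≤ ‖h (y - z)‖ := Real.le_norm_self _
      _ ≤ ‖h‖ * ‖y - z‖ := h.le_opNorm _
      _ ≤ 1 * S.d := by
        have := S.dd y hy z (hL z hz)
        gcongr
      _ = S.d := one_mul _
  have hsum : ∑ z ∈ L, (S.d - h (y - z)) ≤ ε := by
    have e : h (y - zb) = (1 / m) * ∑ z ∈ L, h (y - z) := by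
      have e1 : y - zb = ∑ z ∈ L, (1 / m) • (y - z) := by
        simp only [smul_sub, Finset.sum_sub_distrib, Finset.sum_const, zb]
        congr 1
        rw [← Nat.cast_smul_eq_nsmul ℝ, ← hm, smul_smul, mul_one_div_cancel hmpos.ne', one_smul]
      rw [e1, map_sum, Finset.mul_sum]
      simp only [map_smul, smul_eq_mul]
    rw [Finset.sum_sub_distrib, Finset.sum_const, nsmul_eq_mul, ← hm]
    rw [e] at h1
    have h2 : m * (S.d - ε / m) ≤ m * ((1 / m) * ∑ z ∈ L, h (y - z)) := by gcongr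
    have h3 : m * (S.d - ε / m) = m * S.d - ε := by field_simp
    have h4 : m * ((1 / m) * ∑ z ∈ L, h (y - z)) = ∑ z ∈ L, h (y - z) := by field_simp
    linarith
  intro z hz
  have h5 : S.d - h (y - z) ≤ ∑ z ∈ L, (S.d - h (y - z)) :=
    Finset.single_le_sum (f := fun z => S.d - h (y - z))
      (fun i hi => by have := hle i hi; show 0 ≤ S.d - h (y - i); linarith) hz
  linarith

theorem exists_guard (S : Sys X) (V : List X)
    (hV : ∀ v ∈ V, ∃ t : ℝ, ∃ p ∈ S.K, ∃ q ∈ S.K, v = t • (p - q)) {tol : ℝ} (htol : 0 < tol) :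
    ∃ L : Finset X, (∀ z ∈ L, z ∈ S.K) ∧ ∃ ε > 0, ∀ y ∈ S.K, ∀ h : X →L[ℝ] ℝ, ‖h‖ ≤ 1 →
      (∀ z ∈ L, S.d - ε ≤ h (y - z)) → ∀ v ∈ V, |h v| ≤ tol := by
  classical
  induction V with
  | nil => exact ⟨∅, by simp, 1, one_pos, by simp⟩
  | cons v V ih =>
    obtain ⟨L, hL, ε, hε, h1⟩ := ih (fun u hu => hV u (List.mem_cons_of_mem _ hu))
    obtain ⟨t, p, hp, q, hq, rfl⟩ := hV v List.mem_cons_self
    refine ⟨insert p (insert q L), ?_, min ε (tol / (|t| + 1)), lt_min hε (by positivity), ?_⟩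
    · intro z hz
      rw [Finset.mem_insert, Finset.mem_insert] at hz
      rcases hz with rfl | rfl | hz
      · exact hp
      · exact hq
      · exact hL z hz
    · intro y hy h hh hall u hu
      rw [List.mem_cons] at hu
      rcases hu with rfl | hu
      · have hle : ∀ z ∈ S.K, h (y - z) ≤ S.d := by
          intro z hz
          calc h (y - z) ≤ ‖h (y - z)‖ := Real.le_norm_self _
            _ ≤ ‖h‖ * ‖y - z‖ := h.le_opNorm _
            _ ≤ 1 * S.d := by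
              have := S.dd y hy z hz
              gcongr
            _ = S.d := one_mul _
        have hp1 := hle p hp
        have hq1 := hle q hq
        have hp2 := hall p (by simp)
        have hq2 := hall q (by simp)
        have hm : min ε (tol / (|t| + 1)) ≤ tol / (|t| + 1) := min_le_right _ _
        rw [map_sub] at hp1 hq1 hp2 hq2
        have h3 : |h (p - q)| ≤ tol / (|t| + 1) := by
          rw [map_sub, abs_le]
          constructor <;> linarith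
        rw [map_smul, smul_eq_mul, abs_mul]
        calc |t| * |h (p - q)| ≤ |t| * (tol / (|t| + 1)) := by gcongr
          _ ≤ (|t| + 1) * (tol / (|t| + 1)) := by
            gcongr
            linarith
          _ = tol := by field_simp
      · apply h1 y hy h hh _ u hu
        intro z hz
        have := hall z (by simp [hz])
        have hm : min ε (tol / (|t| + 1)) ≤ ε := min_le_left _ _
        linarith

theorem exists_point_threshold (S : Sys X) (V : List X)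
    (hV : ∀ v ∈ V, ∃ t : ℝ, ∃ p ∈ S.K, ∃ q ∈ S.K, v = t • (p - q)) {tol : ℝ} (htol : 0 < tol)
    {z : X} (hz : z ∈ S.K) {κ : ℝ} (hκ : 0 < κ) :
    ∃ δ > 0, ∀ y ∈ S.K, ‖y - S.T y‖ ≤ δ → ∃ h : X →L[ℝ] ℝ, ‖h‖ ≤ 1 ∧
      h z ≤ h y - S.d + κ ∧ ∀ v ∈ V, |h v| ≤ tol := by
  classical
  obtain ⟨L, hL, ε, hε, h1⟩ := exists_guard S V hV htol
  obtain ⟨δ, hδ, h2⟩ := exists_norming S (insert z L) (by
    intro u hu
    rw [Finset.mem_insert] at hu
    rcases hu with rfl | hu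
    · exact hz
    · exact hL u hu) (lt_min hε hκ)
  refine ⟨δ, hδ, fun y hy hyT => ?_⟩
  obtain ⟨h, hh, hall⟩ := h2 y hy hyT
  refine ⟨h, hh, ?_, ?_⟩
  · have h3 := hall z (by simp)
    have h4 : min ε κ ≤ κ := min_le_right _ _
    rw [map_sub] at h3
    linarith
  · apply h1 y hy h hh
    intro u hu
    have h3 := hall u (by simp [hu])
    have h4 : min ε κ ≤ ε := min_le_left _ _
    linarith

theorem exists_threshold {S : Sys X} {c : ℝ} {Ψ : ℕ → X → X} (hΨ : IsCtx S c Ψ) {x : ℕ → X}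
    (hx : ∀ n, x n ∈ S.K) (V : List X)
    (hV : ∀ v ∈ V, ∃ t : ℝ, ∃ p ∈ S.K, ∃ q ∈ S.K, v = t • (p - q)) {tol : ℝ} (htol : 0 < tol)
    {κ : ℝ} (hκ : 0 < κ) {Q : Set (X × ℝ)} (hQ : IsCompact Q) (hQS : Q ⊆ PS S) :
    ∃ δ > 0, ∀ y ∈ S.K, ‖y - S.T y‖ ≤ δ →
      (∀ p ∈ S.K, ∀ n, ‖Ψ n p - y‖ ≤ (1 - c) * S.d + c * ‖p - y‖ + κ) ∧
      ∀ z ∈ Q, ∃ h : X →L[ℝ] ℝ, ‖h‖ ≤ 1 ∧
        (∀ᶠ n in (hyperfilter ℕ : Filter ℕ),
          h (Ψ n (z.1 + (1 - z.2) • x n)) ≤ h y - S.d + κ) ∧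
        ∀ v ∈ V, |h v| ≤ tol := by
  obtain ⟨δ1, hδ1, hn⟩ := hΨ.near κ hκ
  obtain ⟨R, hR⟩ := S.bd.exists_norm_le
  have hR0 : 0 ≤ R := (norm_nonneg _).trans (hR _ (hx 0))
  have hc := hΨ.pos
  have main : ∃ δ > 0, ∀ y ∈ S.K, ‖y - S.T y‖ ≤ δ →
      ∀ z ∈ Q, ∃ h : X →L[ℝ] ℝ, ‖h‖ ≤ 1 ∧
        (∀ᶠ n in (hyperfilter ℕ : Filter ℕ),
          h (Ψ n (z.1 + (1 - z.2) • x n)) ≤ h y - S.d + κ) ∧
        ∀ v ∈ V, |h v| ≤ tol := by
    have main2 : ∃ δ > 0, ∀ y ∈ S.K, ‖y - S.T y‖ ≤ δ →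
      ∀ z ∈ Q, z ∈ Q → ∃ h : X →L[ℝ] ℝ, ‖h‖ ≤ 1 ∧
        (∀ᶠ n in (hyperfilter ℕ : Filter ℕ),
          h (Ψ n (z.1 + (1 - z.2) • x n)) ≤ h y - S.d + κ) ∧
        ∀ v ∈ V, |h v| ≤ tol := by
      refine hQ.induction_on (p := fun (A : Set (X × ℝ)) =>
        ∃ δ > 0, ∀ y ∈ S.K, ‖y - S.T y‖ ≤ δ →
        ∀ z ∈ A, z ∈ Q → ∃ h : X →L[ℝ] ℝ, ‖h‖ ≤ 1 ∧
          (∀ᶠ n in (hyperfilter ℕ : Filter ℕ),
            h (Ψ n (z.1 + (1 - z.2) • x n)) ≤ h y - S.d + κ) ∧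
          ∀ v ∈ V, |h v| ≤ tol) ?_ ?_ ?_ ?_
      · exact ⟨1, one_pos, by simp⟩
      · intro A A' hAA' hA'
        obtain ⟨δ, hδ, h1⟩ := hA'
        exact ⟨δ, hδ, fun y hy hyT z hz hzQ => h1 y hy hyT z (hAA' hz) hzQ⟩
      · intro A A' hA hA'
        obtain ⟨δ, hδ, h1⟩ := hA
        obtain ⟨δ', hδ', h1'⟩ := hA'
        refine ⟨min δ δ', lt_min hδ hδ', fun y hy hyT z hz hzQ => ?_⟩
        rcases hz with hz | hz
        · exact h1 y hy (hyT.trans (min_le_left _ _)) z hz hzQ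
        · exact h1' y hy (hyT.trans (min_le_right _ _)) z hz hzQ
      · intro z hz
        have hzK : ∀ n, z.1 + (1 - z.2) • x n ∈ S.K := fun n => (hQS hz).2.2.1 _ (hx n)
        obtain ⟨z0, hz0, hlim⟩ := exists_wlim_mem S.href (hyperfilter ℕ)
          (fun n => Ψ n (z.1 + (1 - z.2) • x n)) S.cl S.cv S.bd
          (Filter.Eventually.of_forall fun n => hΨ.mt n (hzK n))
        obtain ⟨δ, hδ, hpt⟩ := exists_point_threshold S V hV htol hz0 (κ := κ / 4) (by linarith)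
        have hcont : Continuous (fun z' : X × ℝ => ‖z'.1 - z.1‖ + |z'.2 - z.2| * R) := by
          fun_prop
        have hnb : {z' : X × ℝ | ‖z'.1 - z.1‖ + |z'.2 - z.2| * R < κ / 4} ∈ 𝓝[Q] z := by
          apply mem_nhdsWithin_of_mem_nhds
          have h0 : ‖z.1 - z.1‖ + |z.2 - z.2| * R < κ / 4 := by
            simp only [sub_self, norm_zero, abs_zero, zero_mul, add_zero]
            linarith
          exact (isOpen_lt hcont continuous_const).mem_nhds h0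
        refine ⟨_, hnb, δ, hδ, fun y hy hyT z' hz' hz'Q => ?_⟩
        obtain ⟨h, hh, hhz, hhV⟩ := hpt y hy hyT
        refine ⟨h, hh, ?_, hhV⟩
        have hev : ∀ᶠ n in (hyperfilter ℕ : Filter ℕ),
            h (Ψ n (z.1 + (1 - z.2) • x n)) < h z0 + κ / 4 :=
          (hlim h).eventually (gt_mem_nhds (by linarith))
        filter_upwards [hev] with n hn'
        have hz'K : z'.1 + (1 - z'.2) • x n ∈ S.K := (hQS hz'Q).2.2.1 _ (hx n)
        have h5 : ‖Ψ n (z'.1 + (1 - z'.2) • x n) - Ψ n (z.1 + (1 - z.2) • x n)‖ ≤ κ / 4 := by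
          calc ‖Ψ n (z'.1 + (1 - z'.2) • x n) - Ψ n (z.1 + (1 - z.2) • x n)‖
              ≤ c * ‖z'.1 + (1 - z'.2) • x n - (z.1 + (1 - z.2) • x n)‖ :=
                hΨ.lip n _ hz'K _ (hzK n)
            _ ≤ 1 * ‖z'.1 + (1 - z'.2) • x n - (z.1 + (1 - z.2) • x n)‖ := by
                have := hΨ.le1
                gcongr
            _ = ‖(z'.1 - z.1) - (z'.2 - z.2) • x n‖ := by
                rw [one_mul]
                congr 1
                simp only [sub_smul, one_smul]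
                abel
            _ ≤ ‖z'.1 - z.1‖ + ‖(z'.2 - z.2) • x n‖ := norm_sub_le _ _
            _ = ‖z'.1 - z.1‖ + |z'.2 - z.2| * ‖x n‖ := by rw [norm_smul, Real.norm_eq_abs]
            _ ≤ ‖z'.1 - z.1‖ + |z'.2 - z.2| * R := by
                have := hR _ (hx n)
                gcongr
            _ ≤ κ / 4 := le_of_lt hz'
        have h6 : h (Ψ n (z'.1 + (1 - z'.2) • x n)) - h (Ψ n (z.1 + (1 - z.2) • x n)) ≤ κ / 4 := by
          rw [← map_sub]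
          calc h _ ≤ ‖h (Ψ n (z'.1 + (1 - z'.2) • x n) - Ψ n (z.1 + (1 - z.2) • x n))‖ :=
                Real.le_norm_self _
            _ ≤ ‖h‖ * ‖Ψ n (z'.1 + (1 - z'.2) • x n) - Ψ n (z.1 + (1 - z.2) • x n)‖ :=
                h.le_opNorm _
            _ ≤ 1 * (κ / 4) := by gcongr
            _ = κ / 4 := one_mul _
        linarith
    obtain ⟨δ, hδ, h1⟩ := main2
    exact ⟨δ, hδ, fun y hy hyT z hz => h1 y hy hyT z hz hz⟩
  obtain ⟨δ2, hδ2, h2⟩ := main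
  refine ⟨min δ1 δ2, lt_min hδ1 hδ2, fun y hy hyT => ⟨fun p hp n => ?_, fun z hz => ?_⟩⟩
  · exact hn y hy (hyT.trans (min_le_left _ _)) p hp n
  · exact h2 y hy (hyT.trans (min_le_right _ _)) z hz

end Vale.Agent.P079
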