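import Mathlib

open Filter Topology Set

namespace Vale.Agent.P079

variable {X : Type*} [NormedAddCommGroup X] [NormedSpace ℝ X]

def WLim {ι : Type*} (U : Ultrafilter ι) (w : ι → X) (z : X) : Prop :=
  ∀ f : X →L[ℝ] ℝ, Tendsto (fun i => f (w i)) U (𝓝 (f z))

theorem exists_real_lim {ι : Type*} (U : Ultrafilter ι) (a : ι → ℝ) (M : ℝ)
    (h : ∀ᶠ i in (U : Filter ι), |a i| ≤ M) : ∃ l : ℝ, Tendsto a U (𝓝 l) := by
  have hc : IsCompact (Icc (-M) M) := isCompact_Icc
  have h2 : (U.map a : Filter ℝ) ≤ 𝓟 (Icc (-M) M) := by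
    rw [Filter.le_principal_iff]
    show ∀ᶠ x in (U.map a : Filter ℝ), x ∈ Icc (-M) M
    rw [Ultrafilter.coe_map, Filter.eventually_map]
    filter_upwards [h] with i hi
    exact abs_le.mp hi
  obtain ⟨l, _, hl⟩ := hc.ultrafilter_le_nhds (U.map a) h2
  exact ⟨l, hl⟩

theorem exists_wlim_of_bounded
    (href : Function.Surjective (NormedSpace.inclusionInDoubleDual ℝ X))
    {ι : Type*} (U : Ultrafilter ι) (w : ι → X) (M : ℝ)
    (h : ∀ᶠ i in (U : Filter ι), ‖w i‖ ≤ M) : ∃ z : X, WLim U w z := by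
  have hlim : ∀ f : X →L[ℝ] ℝ, ∃ l : ℝ, Tendsto (fun i => f (w i)) U (𝓝 l) := by
    intro f
    apply exists_real_lim U _ (‖f‖ * M)
    filter_upwards [h] with i hi
    calc |f (w i)| = ‖f (w i)‖ := (Real.norm_eq_abs _).symm
      _ ≤ ‖f‖ * ‖w i‖ := f.le_opNorm _
      _ ≤ ‖f‖ * M := by gcongr
  choose L hL using hlim
  have hadd : ∀ f g, L (f + g) = L f + L g := by
    intro f g
    apply tendsto_nhds_unique (hL (f + g))
    have := (hL f).add (hL g)
    simpa using this
  have hsmul : ∀ (c : ℝ) f, L (c • f) = c * L f := by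
    intro c f
    apply tendsto_nhds_unique (hL (c • f))
    have := (hL f).const_mul c
    simpa using this
  have hbd : ∀ f, |L f| ≤ M * ‖f‖ := by
    intro f
    have h1 : Tendsto (fun i => |f (w i)|) U (𝓝 |L f|) := (hL f).abs
    apply le_of_tendsto h1
    filter_upwards [h] with i hi
    calc |f (w i)| = ‖f (w i)‖ := (Real.norm_eq_abs _).symm
      _ ≤ ‖f‖ * ‖w i‖ := f.le_opNorm _
      _ ≤ ‖f‖ * M := by gcongr
      _ = M * ‖f‖ := mul_comm _ _
  let Φ : (X →L[ℝ] ℝ) →L[ℝ] ℝ :=
    LinearMap.mkContinuous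
      { toFun := L, map_add' := hadd, map_smul' := by intro c f; simpa using hsmul c f } M
      (by intro f; simpa [Real.norm_eq_abs] using hbd f)
  obtain ⟨z, hz⟩ := href Φ
  refine ⟨z, fun f => ?_⟩
  have : f z = L f := by
    have h1 : (NormedSpace.inclusionInDoubleDual ℝ X z) f = Φ f := by rw [hz]
    simpa [Φ] using h1
  rw [this]
  exact hL f

theorem WLim.mem_of_closed_convex {ι : Type*} {U : Ultrafilter ι} {w : ι → X} {z : X}
    (h : WLim U w z) {S : Set X} (hS : IsClosed S) (hc : Convex ℝ S)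
    (hw : ∀ᶠ i in (U : Filter ι), w i ∈ S) : z ∈ S := by
  by_contra hz
  obtain ⟨f, u, hf, hu⟩ := geometric_hahn_banach_closed_point hc hS hz
  have h1 : f z ≤ u := by
    apply le_of_tendsto (h f)
    filter_upwards [hw] with i hi
    exact (hf _ hi).le
  linarith

theorem WLim.norm_sub_le {ι : Type*} {U : Ultrafilter ι} {w : ι → X} {z : X}
    (h : WLim U w z) {y : X} {r : ℝ}
    (hw : ∀ᶠ i in (U : Filter ι), ‖w i - y‖ ≤ r) : ‖z - y‖ ≤ r := by
  have := h.mem_of_closed_convex (S := Metric.closedBall y r) Metric.isClosed_closedBall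
    (convex_closedBall y r) (by
      filter_upwards [hw] with i hi
      simpa [Metric.mem_closedBall, dist_eq_norm] using hi)
  simpa [Metric.mem_closedBall, dist_eq_norm] using this

theorem exists_wlim_mem
    (href : Function.Surjective (NormedSpace.inclusionInDoubleDual ℝ X))
    {ι : Type*} (U : Ultrafilter ι) (w : ι → X) {K : Set X} (hK : IsClosed K)
    (hc : Convex ℝ K) (hb : Bornology.IsBounded K)
    (hw : ∀ᶠ i in (U : Filter ι), w i ∈ K) : ∃ z ∈ K, WLim U w z := by
  obtain ⟨M, hM⟩ := hb.exists_norm_le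
  obtain ⟨z, hz⟩ := exists_wlim_of_bounded href U w M (by
    filter_upwards [hw] with i hi
    exact hM _ hi)
  exact ⟨z, hz.mem_of_closed_convex hK hc hw, hz⟩

/- sequences chosen successively -/
theorem exists_seq_of_forall_list {α : Type*} (P : List α → α → Prop)
    (h : ∀ l, ∃ a, P l a) : ∃ a : ℕ → α, ∀ j, P ((List.range j).map a) (a j) := by
  choose f hf using h
  let L : ℕ → List α := fun n => Nat.rec [] (fun _ l => l ++ [f l]) n
  have hL0 : L 0 = [] := rfl
  have hLs : ∀ n, L (n + 1) = L n ++ [f (L n)] := fun n => rfl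
  refine ⟨fun n => f (L n), ?_⟩
  have key : ∀ n, (List.range n).map (fun n => f (L n)) = L n := by
    intro n
    induction n with
    | zero => simp [hL0]
    | succ n ih => rw [List.range_succ, List.map_append, ih, hLs]; simp
  intro j
  rw [key]
  exact hf _

end Vale.Agent.P079
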