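import Vale.Agent.P079.Func

open Filter Topology Set

namespace Vale.Agent.P079

variable {X : Type*} [NormedAddCommGroup X] [NormedSpace ℝ X]

/-- The partially flipped combination: weights `c i` (`i < m`) at `a i`, the rest at `y`. -/
def comb (m : ℕ) (c : ℕ → ℝ) (a : ℕ → X) (y : X) : X :=
  ∑ i ∈ Finset.range m, c i • a i + (1 - ∑ i ∈ Finset.range m, c i) • y

theorem comb_eq (m : ℕ) (c : ℕ → ℝ) (a : ℕ → X) (y : X) :
    comb m c a y = y + ∑ i ∈ Finset.range m, c i • (a i - y) := by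
  unfold comb
  simp only [smul_sub, Finset.sum_sub_distrib, ← Finset.sum_smul, sub_smul, one_smul]
  abel

theorem comb_mem {S : Sys X} {m : ℕ} {c : ℕ → ℝ} {a : ℕ → X} {y : X} (ha : ∀ i < m, a i ∈ S.K)
    (hy : y ∈ S.K) (hc : ∀ i < m, 0 ≤ c i) (hs : ∑ i ∈ Finset.range m, c i ≤ 1) :
    comb m c a y ∈ S.K := by
  unfold comb
  rcases (Finset.sum_nonneg (s := Finset.range m) (f := c)
    (fun i hi => hc i (Finset.mem_range.1 hi))).eq_or_lt with h0 | hpos
  · have hz : ∀ i ∈ Finset.range m, c i = 0 :=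
      (Finset.sum_eq_zero_iff_of_nonneg (fun i hi => hc i (Finset.mem_range.1 hi))).1 h0.symm
    have h1 : ∑ i ∈ Finset.range m, c i • a i = 0 := by
      apply Finset.sum_eq_zero
      intro i hi
      rw [hz i hi, zero_smul]
    rw [h1, ← h0]; simpa using hy
  · obtain ⟨s, hs'⟩ : ∃ s, s = ∑ i ∈ Finset.range m, c i := ⟨_, rfl⟩
    rw [← hs'] at hpos hs ⊢
    have h1 : ∑ i ∈ Finset.range m, (s⁻¹ * c i) • a i ∈ S.K := by
      apply S.cv.sum_mem
      · intro i hi
        have := hc i (Finset.mem_range.1 hi)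
        positivity
      · rw [← Finset.mul_sum, ← hs', inv_mul_cancel₀ hpos.ne']
      · intro i hi; exact ha i (Finset.mem_range.1 hi)
    have h2 : ∑ i ∈ Finset.range m, c i • a i
        = s • ∑ i ∈ Finset.range m, (s⁻¹ * c i) • a i := by
      rw [Finset.smul_sum]
      apply Finset.sum_congr rfl
      intro i _
      rw [smul_smul, ← mul_assoc, mul_inv_cancel₀ hpos.ne', one_mul]
    rw [h2]
    exact S.cv h1 hy hpos.le (by linarith) (by ring)

theorem comb_sub_le {S : Sys X} {m : ℕ} {c c' : ℕ → ℝ} {a : ℕ → X} {y : X}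
    (ha : ∀ i < m, a i ∈ S.K) (hy : y ∈ S.K) :
    ‖comb m c a y - comb m c' a y‖ ≤ (∑ i ∈ Finset.range m, |c i - c' i|) * S.d := by
  rw [comb_eq, comb_eq]
  have : (y + ∑ i ∈ Finset.range m, c i • (a i - y)) - (y + ∑ i ∈ Finset.range m, c' i • (a i - y))
      = ∑ i ∈ Finset.range m, (c i - c' i) • (a i - y) := by
    simp only [sub_smul, Finset.sum_sub_distrib]; abel
  rw [this, Finset.sum_mul]
  apply (norm_sum_le _ _).trans
  apply Finset.sum_le_sum
  intro i hi
  rw [norm_smul, Real.norm_eq_abs]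
  exact mul_le_mul_of_nonneg_left (S.dd _ (ha i (Finset.mem_range.1 hi)) _ hy) (abs_nonneg _)

/-- The set of weak limits over all admissible weights is totally bounded. -/
def Wset (U : Ultrafilter ℕ) (x : ℕ → X) (Ψ : ℕ → X → X) (m : ℕ) (a : ℕ → X) : Set X :=
  {w | ∃ c : ℕ → ℝ, (∀ i < m, 0 ≤ c i) ∧ ∑ i ∈ Finset.range m, c i ≤ 1 ∧
    WLim U (fun n => Ψ n (comb m c a (x n))) w}

theorem Wset_sub {S : Sys X} {U : Ultrafilter ℕ} {x : ℕ → X} (hx : ∀ n, x n ∈ S.K)
    {Ψ : ℕ → X → X} (hΨ : ∀ n, MapsTo (Ψ n) S.K S.K) {m : ℕ} {a : ℕ → X}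
    (ha : ∀ i < m, a i ∈ S.K) : Wset U x Ψ m a ⊆ S.K := by
  rintro w ⟨c, hc, hs, hw⟩
  exact hw.mem_of_closed_convex S.cl S.cv (Filter.Eventually.of_forall fun n =>
    hΨ n (comb_mem ha (hx n) hc hs))

theorem WLim.sub_le {U : Ultrafilter ℕ} {u v : ℕ → X} {w z : X} (hw : WLim U u w)
    (hz : WLim U v z) {r : ℝ} (h : ∀ᶠ n in (U : Filter ℕ), ‖u n - v n‖ ≤ r) : ‖w - z‖ ≤ r := by
  obtain ⟨φ, hφ1, hφ2⟩ := exists_norming (w - z)
  rw [← hφ2]
  have h1 : Tendsto (fun n => φ (u n - v n)) U (𝓝 (φ (w - z))) := by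
    simp only [map_sub]
    exact (hw φ).sub (hz φ)
  apply le_of_tendsto h1
  filter_upwards [h] with n hn
  calc φ (u n - v n) ≤ ‖φ (u n - v n)‖ := Real.le_norm_self _
    _ ≤ ‖φ‖ * ‖u n - v n‖ := φ.le_opNorm _
    _ ≤ 1 * r := by gcongr
    _ = r := one_mul _

theorem Wset_tb {S : Sys X} {U : Ultrafilter ℕ} {x : ℕ → X} (hx : ∀ n, x n ∈ S.K)
    {Ψ : ℕ → X → X} (hΨ : ∀ n, MapsTo (Ψ n) S.K S.K) {C : ℝ} (hC : 0 ≤ C)
    (hL : ∀ n, ∀ p ∈ S.K, ∀ q ∈ S.K, ‖Ψ n p - Ψ n q‖ ≤ C * ‖p - q‖) {m : ℕ} {a : ℕ → X}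
    (ha : ∀ i < m, a i ∈ S.K) : TotallyBounded (Wset U x Ψ m a) := by
  -- the compact set of weights
  let ext : (Fin m → ℝ) → ℕ → ℝ := fun c i => if h : i < m then c ⟨i, h⟩ else 0
  let Δ : Set (Fin m → ℝ) := {c | (∀ i, 0 ≤ c i) ∧ ∑ i, c i ≤ 1}
  have hΔ : IsCompact Δ := by
    apply IsCompact.of_isClosed_subset (isCompact_Icc (a := (0 : Fin m → ℝ)) (b := fun _ => 1))
    · apply IsClosed.inter
      · have : {c : Fin m → ℝ | ∀ i, 0 ≤ c i} = ⋂ i, {c | 0 ≤ c i} := by ext; simp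
        show IsClosed {c : Fin m → ℝ | ∀ i, 0 ≤ c i}
        rw [this]
        exact isClosed_iInter fun i => isClosed_le continuous_const (continuous_apply i)
      · exact isClosed_le (continuous_finsetSum _ fun i _ => continuous_apply i) continuous_const
    · rintro c ⟨hc0, hc1⟩
      refine ⟨fun i => hc0 i, fun i => ?_⟩
      exact (Finset.single_le_sum (fun j _ => hc0 j) (Finset.mem_univ i)).trans hc1
  have hext : ∀ c ∈ Δ, (∀ i < m, 0 ≤ ext c i) ∧ ∑ i ∈ Finset.range m, ext c i ≤ 1 := by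
    rintro c ⟨hc0, hc1⟩
    refine ⟨fun i hi => ?_, ?_⟩
    · simp only [ext, hi, dite_true]; exact hc0 _
    · rw [Finset.sum_range]
      simpa [ext] using hc1
  have hex : ∀ c : Fin m → ℝ, ∃ w : X, c ∈ Δ → WLim U (fun n => Ψ n (comb m (ext c) a (x n))) w := by
    intro c
    by_cases hc : c ∈ Δ
    · obtain ⟨w, _, hw⟩ := exists_wlim_mem S.href U (fun n => Ψ n (comb m (ext c) a (x n)))
        S.cl S.cv S.bd (Filter.Eventually.of_forall fun n =>
          hΨ n (comb_mem ha (hx n) (hext c hc).1 (hext c hc).2))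
      exact ⟨w, fun _ => hw⟩
    · exact ⟨0, fun h => absurd h hc⟩
  choose w hw using hex
  have hd := S.d_nonneg
  have hlip : LipschitzOnWith (Real.toNNReal (C * (m * S.d))) w Δ := by
    apply LipschitzOnWith.of_dist_le_mul
    intro c hc c' hc'
    rw [Real.coe_toNNReal _ (by positivity), dist_eq_norm]
    apply (hw c hc).sub_le (hw c' hc')
    filter_upwards with n
    have h1 := hL n _ (comb_mem ha (hx n) (hext c hc).1 (hext c hc).2) _
      (comb_mem ha (hx n) (hext c' hc').1 (hext c' hc').2)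
    have h2 := comb_sub_le (S := S) (c := ext c) (c' := ext c') ha (hx n)
    have h3 : ∑ i ∈ Finset.range m, |ext c i - ext c' i| ≤ m * dist c c' := by
      rw [Finset.sum_range]
      have : ∀ i : Fin m, |ext c i - ext c' i| ≤ dist c c' := by
        intro i
        simp only [ext, i.2, dite_true]
        rw [← Real.dist_eq]
        exact dist_le_pi_dist c c' i
      calc ∑ i : Fin m, |ext c i - ext c' i| ≤ ∑ _i : Fin m, dist c c' :=
            Finset.sum_le_sum fun i _ => this i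
        _ = m * dist c c' := by simp
    calc _ ≤ C * ‖comb m (ext c) a (x n) - comb m (ext c') a (x n)‖ := h1
      _ ≤ C * ((∑ i ∈ Finset.range m, |ext c i - ext c' i|) * S.d) := by gcongr
      _ ≤ C * ((m * dist c c') * S.d) := by gcongr
      _ = C * (m * S.d) * dist c c' := by ring
  have hcomp : IsCompact (w '' Δ) := hΔ.image_of_continuousOn hlip.continuousOn
  apply hcomp.totallyBounded.subset
  rintro z ⟨c, hc0, hc1, hz⟩
  have hcΔ : (fun i : Fin m => c i) ∈ Δ := by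
    refine ⟨fun i => hc0 i i.2, ?_⟩
    rw [Finset.sum_range] at hc1
    exact hc1
  refine ⟨fun i : Fin m => c i, hcΔ, ?_⟩
  have he : ∀ y, comb m (ext fun i : Fin m => c i) a y = comb m c a y := by
    intro y
    unfold comb
    have e1 : ∀ i ∈ Finset.range m, ext (fun i : Fin m => c i) i = c i := by
      intro i hi
      simp only [ext, Finset.mem_range.1 hi, dite_true]
    rw [Finset.sum_congr rfl e1, Finset.sum_congr rfl (fun i hi => by rw [e1 i hi])]
  have h1 := hw _ hcΔ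
  simp only [he] at h1
  have h2 : ‖w (fun i : Fin m => c i) - z‖ ≤ 0 := h1.sub_le hz (by
    filter_upwards with n; simp)
  exact sub_eq_zero.1 (norm_eq_zero.1 (le_antisymm h2 (norm_nonneg _)))

end Vale.Agent.P079
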